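import Vale.Agent.P189.Defs

/-! Labelled generation, cost of families, cancellation of words, exhaustion. -/

namespace Vale.Agent.P189

open MeasureTheory Set
open scoped ENNReal

section Action
variable {G : Type} [Group G] {X : Type} [MeasurableSpace X] {μ : Measure X}

namespace PMPAction
variable (a : PMPAction G X μ)

@[fun_prop] lemma meas (g : G) : Measurable (fun x => a.act x g) := (a.mp g).measurable

@[simp] lemma act_one' (x : X) : a.act x 1 = x := a.act_one x

@[simp] lemma act_act (x : X) (g h : G) : a.act (a.act x g) h = a.act x (g * h) :=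
  a.act_mul x g h

/-- pull back of a set -/
def pb (g : G) (S : Set X) : Set X := {x | a.act x g ∈ S}

@[simp] lemma mem_pb {g : G} {S : Set X} {x : X} : x ∈ a.pb g S ↔ a.act x g ∈ S := Iff.rfl

lemma measurableSet_pb (g : G) {S : Set X} (hS : MeasurableSet S) : MeasurableSet (a.pb g S) :=
  a.meas g hS

lemma measure_pb (g : G) {S : Set X} (hS : MeasurableSet S) : μ (a.pb g S) = μ S :=
  (a.mp g).measure_preimage hS.nullMeasurableSet

lemma pb_pb (g h : G) (S : Set X) : a.pb g (a.pb h S) = a.pb (g * h) S := by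
  ext x; simp

lemma ae_act {p : X → Prop} (h : ∀ᵐ x ∂μ, p x) (g : G) : ∀ᵐ x ∂μ, p (a.act x g) :=
  (a.mp g).quasiMeasurePreserving.ae h

lemma ae_all [Countable G] {p : X → Prop} (h : ∀ᵐ x ∂μ, p x) :
    ∀ᵐ x ∂μ, ∀ g, p (a.act x g) :=
  ae_all_iff.2 fun g => a.ae_act h g

lemma lintegral_act (g : G) {f : X → ℝ≥0∞} (hf : Measurable f) :
    ∫⁻ x, f (a.act x g) ∂μ = ∫⁻ x, f x ∂μ :=
  (a.mp g).lintegral_comp hf

/-- restriction along a homomorphism -/
def comp {H : Type} [Group H] (f : H →* G) : PMPAction H X μ where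
  act x h := a.act x (f h)
  act_one x := by simp
  act_mul x g h := by simp
  mp g := a.mp (f g)

@[simp] lemma comp_act {H : Type} [Group H] (f : H →* G) (x : X) (h : H) :
    (a.comp f).act x h = a.act x (f h) := rfl

lemma EssFree.ae_free [Countable G] {a : PMPAction G X μ} (h : a.EssFree) :
    ∀ᵐ x ∂μ, ∀ g g', a.act x g = a.act x g' → g = g' := by
  have h1 : ∀ᵐ x ∂μ, ∀ g : G, g ≠ 1 → a.act x g ≠ x := by
    refine ae_all_iff.2 fun g => ?_
    by_cases hg : g = 1
    · simp [hg]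
    · have := h g hg
      rw [ae_iff]; simpa [hg] using this
  filter_upwards [h1] with x hx g g' hgg
  by_contra hne
  refine hx (g * g'⁻¹) (fun h => hne (mul_inv_eq_one.1 h)) ?_
  rw [← a.act_act, hgg]; simp

end PMPAction

variable {V : Type} (a : PMPAction G X μ)

/-- symmetric closure of a labelled step relation -/
def Sy (R : X → V → G → V → Prop) (x : X) (v : V) (g : G) (w : V) : Prop :=
  R x v g w ∨ R (a.act x g) w g⁻¹ v

/-- paths with `n` steps -/
def GenN (R : X → V → G → V → Prop) : ℕ → X → V → G → V → Prop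
  | 0, _, v, g, w => g = 1 ∧ v = w
  | n + 1, x, v, g, w => ∃ h u, Sy a R x v h u ∧ GenN R n (a.act x h) u (h⁻¹ * g) w

/-- labelled paths -/
def Gen (R : X → V → G → V → Prop) (x : X) (v : V) (g : G) (w : V) : Prop :=
  ∃ n, GenN a R n x v g w

/-- all labels are realised between all kinds -/
def Full (R : X → V → G → V → Prop) : Prop := ∀ x v g w, Gen a R x v g w

variable {a} {R R' : X → V → G → V → Prop}

lemma Sy.symm {x : X} {v w : V} {g : G} (h : Sy a R x v g w) : Sy a R (a.act x g) w g⁻¹ v := by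
  rcases h with h | h
  · right; simpa using h
  · left; exact h

lemma Gen.refl (x : X) (v : V) : Gen a R x v 1 v := ⟨0, rfl, rfl⟩

lemma Gen.cons {x : X} {v u w : V} {h g : G} (h1 : Sy a R x v h u)
    (h2 : Gen a R (a.act x h) u g w) : Gen a R x v (h * g) w := by
  obtain ⟨n, hn⟩ := h2
  exact ⟨n + 1, h, u, h1, by simpa using hn⟩

lemma Gen.induction {P : X → V → G → V → Prop} (h0 : ∀ x v, P x v 1 v)
    (h1 : ∀ x v h u g w, Sy a R x v h u → Gen a R (a.act x h) u g w → P (a.act x h) u g w →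
      P x v (h * g) w) {x : X} {v w : V} {g : G} (h : Gen a R x v g w) : P x v g w := by
  obtain ⟨n, hn⟩ := h
  induction n generalizing x v g with
  | zero => obtain ⟨rfl, rfl⟩ := hn; exact h0 _ _
  | succ n ih =>
    obtain ⟨h, u, hs, hg⟩ := hn
    have := h1 x v h u _ w hs ⟨n, hg⟩ (ih hg)
    simpa using this

lemma Gen.single {x : X} {v w : V} {g : G} (h : Sy a R x v g w) : Gen a R x v g w := by
  simpa using Gen.cons h (Gen.refl _ _)

lemma Gen.of {x : X} {v w : V} {g : G} (h : R x v g w) : Gen a R x v g w :=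
  Gen.single (Or.inl h)

lemma Gen.trans {x : X} {v u w : V} {g h : G} (h1 : Gen a R x v g u)
    (h2 : Gen a R (a.act x g) u h w) : Gen a R x v (g * h) w := by
  revert h2
  refine Gen.induction (P := fun x v g u => Gen a R (a.act x g) u h w → Gen a R x v (g * h) w)
    ?_ ?_ h1
  · intro x v h; simpa using h
  · intro x v k u g w' hs _ ih h2
    rw [mul_assoc]
    exact Gen.cons hs (ih (by simpa using h2))

lemma Gen.symm {x : X} {v w : V} {g : G} (h : Gen a R x v g w) :
    Gen a R (a.act x g) w g⁻¹ v := by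
  refine Gen.induction (P := fun x v g w => Gen a R (a.act x g) w g⁻¹ v) ?_ ?_ h
  · intro x v; simpa using Gen.refl x v
  · intro x v k u g w hs _ ih
    have h2 := Gen.single hs.symm
    have := Gen.trans ih (by simpa using h2)
    simpa using this

lemma Gen.cast {x y : X} {v w : V} {g h : G} (h1 : Gen a R x v g w) (hx : x = y) (hg : g = h) :
    Gen a R y v h w := hx ▸ hg ▸ h1

lemma Gen.sim {V' : Type} {R' : X → V' → G → V' → Prop} (ι : V → V')
    (hR : ∀ x v g w, R x v g w → Gen a R' x (ι v) g (ι w)) {x : X} {v w : V} {g : G}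
    (h : Gen a R x v g w) : Gen a R' x (ι v) g (ι w) := by
  refine Gen.induction (P := fun x v g w => Gen a R' x (ι v) g (ι w)) ?_ ?_ h
  · intro x v; exact Gen.refl _ _
  · intro x v k u g w hs _ ih
    refine Gen.trans ?_ ih
    rcases hs with hs | hs
    · exact hR _ _ _ _ hs
    · simpa using (hR _ _ _ _ hs).symm

lemma Gen.mono (hR : ∀ x v g w, R x v g w → R' x v g w) {x : X} {v w : V} {g : G}
    (h : Gen a R x v g w) : Gen a R' x v g w :=
  Gen.sim id (fun x v g w h => Gen.of (hR x v g w h)) h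

lemma measurable_GenN [Countable V] [Countable G] (hR : ∀ v g w, Measurable fun x => R x v g w)
    (n : ℕ) (v : V) (g : G) (w : V) : Measurable fun x => GenN a R n x v g w := by
  induction n generalizing v g with
  | zero => exact measurable_const
  | succ n ih =>
    refine Measurable.exists fun h => Measurable.exists fun u => Measurable.and ?_ ?_
    · exact (hR _ _ _).or ((hR _ _ _).comp (a.meas h))
    · exact (ih _ _).comp (a.meas h)

lemma measurable_Gen [Countable V] [Countable G] (hR : ∀ v g w, Measurable fun x => R x v g w)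
    (v : V) (g : G) (w : V) : Measurable fun x => Gen a R x v g w :=
  Measurable.exists fun n => measurable_GenN hR n v g w

/-- fullness from generators -/
lemma full_of_gens (o : V) (S : Set G) (hS : Subgroup.closure S = ⊤)
    (h1 : ∀ x v, ∃ g, Gen a R x v g o) (h2 : ∀ x, ∀ s ∈ S, Gen a R x o s o) : Full a R := by
  have h3 : ∀ g x, Gen a R x o g o := by
    intro g
    have hg : g ∈ Subgroup.closure S := hS ▸ Subgroup.mem_top g
    induction hg using Subgroup.closure_induction with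
    | mem s hs => exact fun x => h2 x s hs
    | one => exact fun x => Gen.refl _ _
    | mul g h _ _ ihg ihh => exact fun x => (ihg x).trans (ihh _)
    | inv g _ ih => intro x; simpa using (ih (a.act x g⁻¹)).symm
  intro x v g w
  obtain ⟨k, hk⟩ := h1 x v
  obtain ⟨l, hl⟩ := h1 (a.act x g) w
  have := (hk.trans (h3 (k⁻¹ * g * l) _)).trans (hl.symm.cast (by simp [mul_assoc]) rfl)
  simpa [mul_assoc] using this

end Action

section Cost
variable {X : Type} [MeasurableSpace X] (μ : Measure X) {K K' : Type}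

/-- total measure of a family of sets -/
noncomputable def cst (D : K → Set X) : ℝ≥0∞ := ∑' k, μ (D k)

variable {μ}

lemma cst_mono {D D' : K → Set X} (h : ∀ k, D k ⊆ D' k) : cst μ D ≤ cst μ D' :=
  ENNReal.tsum_le_tsum fun k => measure_mono (h k)

lemma cst_union_le {D D1 D2 : K → Set X} (h : ∀ k, D k ⊆ D1 k ∪ D2 k) :
    cst μ D ≤ cst μ D1 + cst μ D2 := by
  unfold cst
  rw [← ENNReal.tsum_add]
  exact ENNReal.tsum_le_tsum fun k => (measure_mono (h k)).trans (measure_union_le _ _)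

lemma cst_push [Countable K] (f : K → K') {B : K → Set X} {D : K' → Set X}
    (h : ∀ k' x, x ∈ D k' → ∃ k, f k = k' ∧ x ∈ B k) : cst μ D ≤ cst μ B := by
  unfold cst
  rw [← ENNReal.tsum_fiberwise (fun k => μ (B k)) f]
  refine ENNReal.tsum_le_tsum fun k' => ?_
  refine le_trans (measure_mono ?_) (measure_iUnion_le (fun k : f ⁻¹' {k'} => B k))
  intro x hx
  obtain ⟨k, hk, hx⟩ := h k' x hx
  exact mem_iUnion.2 ⟨⟨k, hk⟩, hx⟩

lemma cst_single (k0 : K) {U : Set X} {D : K → Set X} (h : ∀ k x, x ∈ D k → k = k0 ∧ x ∈ U) :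
    cst μ D ≤ μ U := by
  have := cst_push (μ := μ) (fun _ : Unit => k0) (B := fun _ => U) (D := D)
    (fun k x hx => ⟨(), (h k x hx).1.symm, (h k x hx).2⟩)
  simpa [cst] using this

lemma cst_add_le {P Q R : K → Set X} (hQ : ∀ k, MeasurableSet (Q k))
    (hd : ∀ k, Disjoint (P k) (Q k)) (hP : ∀ k, P k ⊆ R k) (hQ' : ∀ k, Q k ⊆ R k) :
    cst μ P + cst μ Q ≤ cst μ R := by
  unfold cst
  rw [← ENNReal.tsum_add]
  refine ENNReal.tsum_le_tsum fun k => ?_
  rw [← measure_union (hd k) (hQ k)]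
  exact measure_mono (union_subset (hP k) (hQ' k))

lemma cst_iUnion {D : ℕ → K → Set X} (h : Monotone D) :
    cst μ (fun k => ⋃ n, D n k) = ⨆ n, cst μ (D n) := by
  unfold cst
  have h1 : ∀ k, μ (⋃ n, D n k) = ⨆ n, μ (D n k) := fun k =>
    Monotone.measure_iUnion (fun m n hmn => h hmn k)
  simp_rw [h1, ENNReal.tsum_eq_iSup_sum]
  rw [iSup_comm]
  refine iSup_congr fun s => ?_
  exact ENNReal.finsetSum_iSup_of_monotone fun k m n hmn => measure_mono (h hmn k)

lemma cst_le_card [Fintype K] [IsProbabilityMeasure μ] (D : K → Set X) :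
    cst μ D ≤ Fintype.card K := by
  unfold cst
  rw [tsum_fintype]
  calc ∑ k, μ (D k) ≤ ∑ _k : K, (1 : ℝ≥0∞) := Finset.sum_le_sum fun k _ => prob_le_one
    _ = _ := by simp

lemma cst_sum (D : K ⊕ K' → Set X) :
    cst μ D = cst μ (fun k => D (Sum.inl k)) + cst μ (fun k => D (Sum.inr k)) := by
  unfold cst
  exact Summable.tsum_sum ENNReal.summable ENNReal.summable

end Cost

section Words
variable {P α : Type} (e : P → P → Prop) (L : P → α × Bool → P → Prop)

/-- paths modulo an equivalence relation reading a word -/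
def Wd : P → List (α × Bool) → P → Prop
  | p, [], q => e p q
  | p, x :: l, q => ∃ p1 p2, e p p1 ∧ L p1 x p2 ∧ Wd p2 l q

variable {e L}

lemma Wd.left (he : Equivalence e) {p p' q : P} {l : List (α × Bool)} (h : e p p')
    (hw : Wd e L p' l q) : Wd e L p l q := by
  cases l with
  | nil => exact he.trans h hw
  | cons x l =>
    obtain ⟨p1, p2, h1, h2, h3⟩ := hw
    exact ⟨p1, p2, he.trans h h1, h2, h3⟩

lemma Wd.step (he : Equivalence e)
    (hc : ∀ p p1 p2 q x b, L p (x, b) p1 → e p1 p2 → L p2 (x, !b) q → e p q)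
    (l1 l2 : List (α × Bool)) (x : α) (b : Bool) (p q : P)
    (h : Wd e L p (l1 ++ (x, b) :: (x, !b) :: l2) q) : Wd e L p (l1 ++ l2) q := by
  induction l1 generalizing p with
  | nil =>
    obtain ⟨p1, p2, h1, h2, p3, p4, h3, h4, h5⟩ := h
    exact Wd.left he (he.trans h1 (hc _ _ _ _ _ _ h2 h3 h4)) h5
  | cons y l ih =>
    obtain ⟨p1, p2, h1, h2, h3⟩ := h
    exact ⟨p1, p2, h1, h2, ih _ h3⟩

lemma Wd.eq_of_mk_eq_one (he : Equivalence e)
    (hc : ∀ p p1 p2 q x b, L p (x, b) p1 → e p1 p2 → L p2 (x, !b) q → e p q)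
    {l : List (α × Bool)} (hl : FreeGroup.mk l = 1) {p q : P} (h : Wd e L p l q) : e p q := by
  classical
  have hred : FreeGroup.Red l [] := by
    have h1 : FreeGroup.Red l (FreeGroup.reduce l) := FreeGroup.reduce.red
    have h2 : FreeGroup.reduce l = [] := by
      rw [← FreeGroup.toWord_mk, hl, FreeGroup.toWord_one]
    rwa [h2] at h1
  have key : ∀ l', FreeGroup.Red l l' → Wd e L p l' q := by
    intro l' hl'
    induction hl' with
    | refl => exact h
    | tail _ hs ih =>
      cases hs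
      exact Wd.step he hc _ _ _ _ _ _ ih
  exact key _ hred

end Words

/-- Exhaustion (Brezis-Browder type) lemma. -/
lemma exhaust {P : Type} [Preorder P] (Ψ : P → ℝ≥0∞) (p0 : P)
    (hch : ∀ p : ℕ → P, Monotone p → (∀ n, Ψ (p (n + 1)) ≤ Ψ (p n)) →
      ∃ u, (∀ n, p n ≤ u) ∧ ∀ n, Ψ u ≤ Ψ (p n)) :
    ∃ u, Ψ u ≤ Ψ p0 ∧ ∀ u', u ≤ u' → Ψ u ≤ Ψ u' := by
  have step : ∀ (n : ℕ) (p : P), ∃ q, p ≤ q ∧ Ψ q ≤ Ψ p ∧
      ∀ u', p ≤ u' → Ψ q ≤ Ψ u' + ((n : ℝ≥0∞))⁻¹ := by
    intro n p
    by_cases hp : ∀ u', p ≤ u' → Ψ p ≤ Ψ u' + ((n : ℝ≥0∞))⁻¹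
    · exact ⟨p, le_rfl, le_rfl, hp⟩
    · push Not at hp
      obtain ⟨u, hu, hlt⟩ := hp
      set I := ⨅ (u' : P) (_ : p ≤ u'), Ψ u' with hI
      have hIu : ∀ u', p ≤ u' → I ≤ Ψ u' := fun u' h => iInf₂_le u' h
      have hne : I ≠ ⊤ := ne_top_of_le_ne_top (ne_top_of_lt (lt_of_le_of_lt le_self_add hlt))
        (hIu u hu)
      have : I < I + ((n : ℝ≥0∞))⁻¹ := ENNReal.lt_add_right hne (by simp)
      rw [hI, iInf_lt_iff] at this
      obtain ⟨q, hq⟩ := this
      rw [iInf_lt_iff] at hq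
      obtain ⟨hpq, hq⟩ := hq
      refine ⟨q, hpq, ?_, fun u' hu' => hq.le.trans (by gcongr; exact hIu u' hu')⟩
      exact hq.le.trans (le_trans (by gcongr; exact hIu u hu) hlt.le)
  choose f hf1 hf2 hf3 using step
  let p : ℕ → P := fun n => Nat.rec p0 (fun n q => f n q) n
  have hp : ∀ n, p (n + 1) = f n (p n) := fun n => rfl
  obtain ⟨u, hu1, hu2⟩ := hch p (monotone_nat_of_le_succ fun n => hf1 n (p n))
    (fun n => hf2 n (p n))
  refine ⟨u, hu2 0, fun u' hu' => ?_⟩
  refine ENNReal.le_of_forall_pos_le_add fun ε hε _ => ?_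
  obtain ⟨n, hn⟩ := ENNReal.exists_inv_nat_lt (a := (ε : ℝ≥0∞)) (by simpa using hε.ne')
  calc Ψ u ≤ Ψ (p (n + 1)) := hu2 (n + 1)
    _ ≤ Ψ u' + ((n : ℝ≥0∞))⁻¹ := hf3 n (p n) u' ((hu1 n).trans hu')
    _ ≤ _ := by gcongr

section Sep
variable {G : Type} [Group G] {X : Type} [MeasurableSpace X] [StandardBorelSpace X]
  {μ : Measure X} {a : PMPAction G X μ}

lemma sep_one (ha : a.EssFree) {W : Set X} (hW : MeasurableSet W) (h0 : μ W ≠ 0) {g : G}
    (hg : g ≠ 1) : ∃ U ⊆ W, MeasurableSet U ∧ μ U ≠ 0 ∧ ∀ x ∈ U, a.act x g ∉ U := by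
  set φ := embeddingReal X
  have hφ : Measurable φ := measurable_embeddingReal X
  have hinj : Function.Injective φ := (measurableEmbedding_embeddingReal X).injective
  have hφg : Measurable fun x => φ (a.act x g) := hφ.comp (a.meas g)
  let S : ℚ × Bool → Set X := fun r => if r.2 then W ∩ {x | φ x < r.1 ∧ r.1 < φ (a.act x g)}
    else W ∩ {x | φ (a.act x g) < r.1 ∧ r.1 < φ x}
  have hcov : W ⊆ {x | a.act x g = x} ∪ ⋃ r, S r := by
    intro x hx
    by_cases h : a.act x g = x
    · exact Or.inl h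
    · right
      rcases lt_or_gt_of_ne (hinj.ne h) with h | h
      · obtain ⟨r, h1, h2⟩ := exists_rat_btwn h
        exact mem_iUnion.2 ⟨(r, false), hx, h1, h2⟩
      · obtain ⟨r, h1, h2⟩ := exists_rat_btwn h
        exact mem_iUnion.2 ⟨(r, true), hx, h1, h2⟩
  have : ∃ r, μ (S r) ≠ 0 := by
    by_contra hcon
    push Not at hcon
    exact h0 (measure_mono_null hcov (measure_union_null (ha g hg) (measure_iUnion_null hcon)))
  obtain ⟨⟨r, b⟩, hr⟩ := this
  cases b
  · refine ⟨S (r, false), inter_subset_left, hW.inter ?_, hr, ?_⟩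
    · exact (measurableSet_lt hφg measurable_const).inter (measurableSet_lt measurable_const hφ)
    · rintro x ⟨_, h1, _⟩ ⟨_, _, h2⟩
      exact lt_asymm h1 h2
  · refine ⟨S (r, true), inter_subset_left, hW.inter ?_, hr, ?_⟩
    · exact (measurableSet_lt hφ measurable_const).inter (measurableSet_lt measurable_const hφg)
    · rintro x ⟨_, _, h1⟩ ⟨_, h2, _⟩
      exact lt_asymm h1 h2

lemma sep_finset (ha : a.EssFree) {W : Set X} (hW : MeasurableSet W) (h0 : μ W ≠ 0)
    (F : Finset G) : ∃ U ⊆ W, MeasurableSet U ∧ μ U ≠ 0 ∧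
      ∀ g ∈ F, g ≠ 1 → ∀ x ∈ U, a.act x g ∉ U := by
  classical
  induction F using Finset.induction_on with
  | empty => exact ⟨W, subset_rfl, hW, h0, by simp⟩
  | insert g F _ ih =>
    obtain ⟨U, h1, h2, h3, h4⟩ := ih
    by_cases hg : g = 1
    · refine ⟨U, h1, h2, h3, fun k hk hk1 => ?_⟩
      rcases Finset.mem_insert.1 hk with rfl | hk
      · exact absurd hg hk1
      · exact h4 k hk hk1
    · obtain ⟨U', h5, h6, h7, h8⟩ := sep_one ha h2 h3 hg
      refine ⟨U', h5.trans h1, h6, h7, fun k hk hk1 => ?_⟩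
      rcases Finset.mem_insert.1 hk with rfl | hk
      · exact h8
      · exact fun x hx hx' => h4 k hk hk1 x (h5 hx) (h5 hx')

end Sep

end Vale.Agent.P189
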