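import Vale.Agent.P189.Basic

/-! The Bernoulli shift: freeness and spectral gap. -/

namespace Vale.Agent.P189

open MeasureTheory Set ProbabilityTheory
open scoped ENNReal symmDiff Classical

lemma unif_mp {Ω : Type} [Fintype Ω] [MeasurableSpace Ω] [MeasurableSingletonClass Ω]
    (e : Ω ≃ Ω) : MeasurePreserving e (uniformOn univ) (uniformOn univ) := by
  refine ⟨Measurable.of_discrete, Measure.ext fun s hs => ?_⟩
  rw [Measure.map_apply Measurable.of_discrete hs, uniformOn_univ, uniformOn_univ,
    ← e.image_symm_eq_preimage, Measure.count_injective_image e.symm.injective]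

variable (G : Type) [Group G]

/-- the Bernoulli measure -/
noncomputable def bern : Measure (G → Bool) := Measure.infinitePi fun _ => uniformOn univ

instance : IsProbabilityMeasure (bern G) := by unfold bern; infer_instance

/-- the Bernoulli shift -/
def shift : PMPAction G (G → Bool) (bern G) where
  act ω g := fun h => ω (g * h)
  act_one ω := by simp
  act_mul ω g h := by simp [mul_assoc]
  mp g := ⟨by fun_prop, Measure.map_infinitePi_infinitePi_of_inj (mul_right_injective g)⟩

variable {G}

/-- sign -/
def sg (b : Bool) : ℝ := cond b 1 (-1)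

/-- Walsh functions -/
noncomputable def χ (D : Finset G) (ω : G → Bool) : ℝ := ∏ h ∈ D, sg (ω h)

/-- translate of a finite set -/
def tr (w : G) (D : Finset G) : Finset G := D.map (Equiv.mulLeft w).toEmbedding

lemma sg_mul_self (b : Bool) : sg b * sg b = 1 := by cases b <;> simp [sg]

omit [Group G] in
lemma meas_χ (D : Finset G) : Measurable (χ D) :=
  Finset.measurable_prod _ fun h _ =>
    (Measurable.of_discrete (f := sg)).comp (measurable_pi_apply h)

omit [Group G] in
lemma χ_mul (D E : Finset G) (ω : G → Bool) : χ D ω * χ E ω = χ (D ∆ E) ω := by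
  unfold χ
  rw [symmDiff_def, Finset.sup_eq_union, Finset.prod_union disjoint_sdiff_sdiff,
    ← Finset.prod_sdiff (Finset.inter_subset_left (s₁ := D) (s₂ := E)),
    ← Finset.prod_sdiff (Finset.inter_subset_right (s₁ := D) (s₂ := E)),
    Finset.sdiff_inter_self_left, Finset.sdiff_inter_self_right]
  have : (∏ h ∈ D ∩ E, sg (ω h)) * ∏ h ∈ D ∩ E, sg (ω h) = 1 := by
    rw [← Finset.prod_mul_distrib]; simp [sg_mul_self]
  linear_combination (∏ h ∈ D \ E, sg (ω h)) * (∏ h ∈ E \ D, sg (ω h)) * this

omit [Group G] in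
lemma χ_empty (ω : G → Bool) : χ ∅ ω = 1 := by simp [χ]

omit [Group G] in
lemma abs_χ (D : Finset G) (ω : G → Bool) : ‖χ D ω‖ ≤ 1 := by
  have := χ_mul D D ω
  rw [symmDiff_self, Finset.bot_eq_empty, χ_empty] at this
  rw [Real.norm_eq_abs, ← sq_le_one_iff_abs_le_one, sq, this]

lemma χ_shift (D : Finset G) (w : G) (ω : G → Bool) : χ D ((shift G).act ω w) = χ (tr w D) ω := by
  simp [χ, tr, shift]

omit [Group G] in
lemma int_χ (D : Finset G) : Integrable (χ D) (bern G) :=
  Integrable.of_bound (meas_χ D).aestronglyMeasurable 1 (Filter.Eventually.of_forall (abs_χ D))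

omit [Group G] in
lemma integral_χ (D : Finset G) : ∫ ω, χ D ω ∂bern G = if D = ∅ then 1 else 0 := by
  split_ifs with h
  · simp [h, χ_empty]
  obtain ⟨h0, hh⟩ := Finset.nonempty_iff_ne_empty.2 h
  let e : G → Bool ≃ Bool := fun h => if h = h0 then Equiv.boolNot else Equiv.refl _
  have hm : Measurable fun (ω : G → Bool) h => e h (ω h) := by fun_prop
  have h1 : (bern G).map (fun ω h => e h (ω h)) = bern G := by
    unfold bern
    rw [Measure.infinitePi_map_pi _ (f := fun h => e h) fun _ => Measurable.of_discrete]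
    congr 1
    ext1 h
    exact (unif_mp (e h)).map_eq
  have h2 : ∀ ω : G → Bool, χ D (fun h => e h (ω h)) = - χ D ω := by
    intro ω
    unfold χ
    rw [← Finset.mul_prod_erase _ _ hh, ← Finset.mul_prod_erase _ (fun h => sg (ω h)) hh,
      neg_mul_eq_neg_mul]
    congr 1
    · cases hω : ω h0 <;> simp [e, sg, hω]
    · exact Finset.prod_congr rfl fun h hh => by simp [e, (Finset.mem_erase.1 hh).1]
  have h3 := integral_map (μ := bern G) hm.aemeasurable (meas_χ D).aestronglyMeasurable
  rw [h1] at h3
  simp_rw [h2, integral_neg] at h3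
  linarith

omit [Group G] in
lemma integral_bilin {ι κ : Type} (s : Finset ι) (t : Finset κ) (x : ι → ℝ) (y : κ → ℝ)
    (D : ι → Finset G) (E : κ → Finset G) :
    ∫ ω, (∑ i ∈ s, x i * χ (D i) ω) * (∑ j ∈ t, y j * χ (E j) ω) ∂bern G =
      ∑ j ∈ t, ∑ i ∈ s, if D i = E j then x i * y j else 0 := by
  simp_rw [Finset.mul_sum, Finset.sum_mul, mul_mul_mul_comm _ (χ _ _), χ_mul]
  rw [integral_finsetSum _ fun j _ => integrable_finsetSum _ fun i _ => (int_χ _).const_mul _]
  refine Finset.sum_congr rfl fun j _ => ?_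
  rw [integral_finsetSum _ fun i _ => (int_χ _).const_mul _]
  refine Finset.sum_congr rfl fun i _ => ?_
  rw [integral_const_mul, integral_χ]
  simp [← Finset.bot_eq_empty]

lemma shift_free [Infinite G] : (shift G).EssFree := by
  intro g hg
  have hinf : (range fun h : G => ({h, g * h} : Finset G)).Infinite := by
    intro hfin
    refine infinite_univ (α := G) ((hfin.biUnion fun D _ => D.finite_toSet).subset fun h _ => ?_)
    exact mem_biUnion (mem_range_self h) (by simp)
  have key : ∀ N : ℕ, (N : ℝ) * N * (bern G).real {ω | (shift G).act ω g = ω} ≤ N := by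
    intro N
    obtain ⟨S, hS, rfl⟩ := hinf.exists_subset_card_eq N
    have h1 := integral_bilin S S (fun _ => 1) (fun _ => 1) id id
    simp only [one_mul, id, Finset.sum_ite_eq', Finset.sum_ite_mem, Finset.inter_self,
      Finset.sum_const, nsmul_eq_mul, mul_one] at h1
    have hint : Integrable (fun ω => (∑ i ∈ S, χ i ω) * ∑ i ∈ S, χ i ω) (bern G) := by
      simp_rw [Finset.sum_mul_sum, χ_mul]
      exact integrable_finsetSum _ fun _ _ => integrable_finsetSum _ fun _ _ => int_χ _
    have h2 := mul_meas_ge_le_integral_of_nonneg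
      (Filter.Eventually.of_forall fun ω => mul_self_nonneg _) hint ((S.card : ℝ) * S.card)
    rw [h1] at h2
    refine le_trans (mul_le_mul_of_nonneg_left (measureReal_mono ?_) (by positivity)) h2
    intro ω hω
    have : ∑ i ∈ S, χ i ω = S.card := by
      rw [Finset.card_eq_sum_ones]; push_cast
      refine Finset.sum_congr rfl fun D hD => ?_
      obtain ⟨h, rfl⟩ := hS hD
      have h3 : ω (g * h) = ω h := congrFun hω h
      rw [χ, Finset.prod_pair (by simpa using hg), h3, sg_mul_self]
    simp [this]
  rw [← measureReal_eq_zero_iff]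
  by_contra h0
  have hpos : 0 < (bern G).real {ω | (shift G).act ω g = ω} :=
    lt_of_le_of_ne measureReal_nonneg (Ne.symm h0)
  obtain ⟨N, hN⟩ := exists_nat_gt (1 / (bern G).real {ω | (shift G).act ω g = ω})
  have hN0 : (0 : ℝ) < N := lt_trans (by positivity) hN
  rw [div_lt_iff₀ hpos] at hN
  have := key N
  nlinarith

lemma bern_half (u : Bool) : 2 * bern G {ω | ω 1 = u} ≤ 1 := by
  have := (measurePreserving_eval_infinitePi (fun _ : G => uniformOn (univ : Set Bool))
    1).measure_preimage (s := {u}) (measurableSet_singleton u).nullMeasurableSet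
  rw [uniformOn_univ] at this
  refine le_of_eq ?_
  rw [show bern G {ω | ω 1 = u} = _ from this]
  simp [ENNReal.mul_inv_cancel]

lemma tr_inj (w : G) : Function.Injective (tr w) := Finset.map_injective _

lemma tr_empty (w : G) : tr w ∅ = ∅ := rfl

section Gap
variable {ι : Type} [Fintype ι] (hι : Fintype.card ι = 32) (w : ι → G) (H : ι → Set G)
  (hd : Pairwise (Function.onFun Disjoint H)) (hw : ∀ n h, h ∈ H n ∨ w n * h ∈ H n)
include hι hd hw

lemma gap_coef (c : Finset G →₀ ℝ) :
    ∑ n, ∑ D ∈ c.support.erase ∅, c (tr (w n) D) * c D ≤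
      16 * ∑ D ∈ c.support.erase ∅, c D * c D := by
  let P : ι → Finset G → Prop := fun n D => D.card ≤ 2 * (D.filter (· ∈ H n)).card
  let F : ι → Finset G → ℝ := fun n D => c D * c D / 8 + 2 * (if P n D then c D * c D else 0)
  have hF : ∀ n D, 0 ≤ F n D := fun n D => by
    have := mul_self_nonneg (c D)
    simp only [F]; split_ifs <;> positivity
  have hP : ∀ n D, P n D ∨ P n (tr (w n) D) := by
    intro n D
    have h1 := Finset.card_filter_add_card_filter_not (s := D) (· ∈ H n)
    have h2 : (D.filter (¬ · ∈ H n)).card ≤ ((tr (w n) D).filter (· ∈ H n)).card := by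
      rw [← Finset.card_map (Equiv.mulLeft (w n)).toEmbedding]
      refine Finset.card_le_card fun z hz => ?_
      obtain ⟨h, hh, rfl⟩ := Finset.mem_map.1 hz
      rw [Finset.mem_filter] at hh ⊢
      exact ⟨Finset.mem_map_of_mem _ hh.1, (hw n h).resolve_left hh.2⟩
    have h3 : (tr (w n) D).card = D.card := Finset.card_map _
    simp only [P]; omega
  have h1 : ∀ n, ∑ D ∈ c.support.erase ∅, c (tr (w n) D) * c D ≤
      2 * ∑ D ∈ c.support.erase ∅, F n D := by
    intro n
    have h2 : ∑ D ∈ c.support.erase ∅, F n (tr (w n) D) ≤ ∑ D ∈ c.support.erase ∅, F n D := by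
      rw [← Finset.sum_image (f := F n) (tr_inj (w n)).injOn, ← Finset.sum_filter_ne_zero]
      refine Finset.sum_le_sum_of_subset_of_nonneg (fun E hE => ?_) fun D _ _ => hF n D
      obtain ⟨hE, hE'⟩ := Finset.mem_filter.1 hE
      obtain ⟨D, hD, rfl⟩ := Finset.mem_image.1 hE
      refine Finset.mem_erase.2 ⟨fun h => (Finset.mem_erase.1 hD).1 (tr_inj (w n) h), ?_⟩
      rw [Finsupp.mem_support_iff]
      intro h
      simp [F, h] at hE'
    refine le_trans (Finset.sum_le_sum fun D _ => (?_ : _ ≤ F n (tr (w n) D) + F n D)) ?_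
    · simp only [F]
      have := mul_self_nonneg (c D)
      have := mul_self_nonneg (c (tr (w n) D))
      rcases hP n D with h | h <;> rw [if_pos h] <;> split_ifs <;>
        nlinarith [sq_nonneg (c D - 4 * c (tr (w n) D)), sq_nonneg (4 * c D - c (tr (w n) D))]
    · rw [Finset.sum_add_distrib]; linarith
  refine (Finset.sum_le_sum fun n _ => h1 n).trans ?_
  rw [← Finset.mul_sum, Finset.sum_comm, Finset.mul_sum, Finset.mul_sum]
  refine Finset.sum_le_sum fun D hD => ?_
  have hD0 : 0 < D.card := Finset.card_pos.2 (Finset.nonempty_iff_ne_empty.2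
    (Finset.mem_erase.1 hD).1)
  have h2 : (Finset.univ.filter fun n => P n D).card ≤ 2 := by
    have h3 : ∑ n, (D.filter (· ∈ H n)).card ≤ D.card := by
      rw [← Finset.card_biUnion]
      · exact Finset.card_le_card (Finset.biUnion_subset.2 fun n _ => Finset.filter_subset _ _)
      · intro n _ m _ hnm
        exact Finset.disjoint_filter.2 fun z _ h h' => disjoint_left.1 (hd hnm) h h'
    have h4 : (Finset.univ.filter fun n => P n D).card * D.card ≤
        ∑ n, 2 * (D.filter (· ∈ H n)).card := by
      rw [← smul_eq_mul, ← Finset.sum_const]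
      exact (Finset.sum_le_sum fun n hn => (Finset.mem_filter.1 hn).2).trans
        (Finset.sum_le_sum_of_subset (Finset.filter_subset _ _))
    rw [← Finset.mul_sum] at h4
    exact Nat.le_of_mul_le_mul_right (h4.trans (Nat.mul_le_mul_left 2 h3)) hD0
  simp only [F]
  rw [Finset.sum_add_distrib, ← Finset.mul_sum, ← Finset.sum_filter]
  simp only [Finset.sum_const, Finset.card_univ, hι, nsmul_eq_mul]
  have h3 : ((Finset.univ.filter fun n => P n D).card : ℝ) ≤ 2 := by exact_mod_cast h2
  have := mul_self_nonneg (c D)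
  push_cast
  nlinarith

lemma gap_cyl (S : Set (G → Bool)) (hS : MeasurableSet S) (c : Finset G →₀ ℝ)
    (hc : ∀ ω, S.indicator 1 ω = ∑ D ∈ c.support, c D * χ D ω) :
    32 * ((bern G).real S * (1 - (bern G).real S)) ≤
      ∑ n, (bern G).real (S ∆ (shift G).pb (w n) S) := by
  have h1 : (bern G).real S = c ∅ := by
    have := integral_bilin c.support ({()} : Finset Unit) c (fun _ => 1) id fun _ => ∅
    simp only [id, ← hc, Finset.sum_singleton, χ_empty, mul_one, Finset.sum_ite_eq',
      integral_indicator_one hS] at this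
    rw [this]
    split_ifs with h
    · rfl
    · exact (Finsupp.notMem_support_iff.1 h).symm
  have h2 : ∀ g, (bern G).real (S ∩ (shift G).pb g S) =
      c ∅ * c ∅ + ∑ D ∈ c.support.erase ∅, c (tr g D) * c D := by
    intro g
    have := integral_bilin c.support c.support c c id (tr g)
    simp only [id, ← χ_shift, ← hc, Finset.sum_ite_eq'] at this
    rw [← integral_indicator_one (hS.inter ((shift G).measurableSet_pb g hS)),
      inter_indicator_one]
    refine Eq.trans this ?_
    have h3 : ∀ D ∈ c.support, (if tr g D ∈ c.support then c (tr g D) * c D else 0) =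
        c (tr g D) * c D := by
      intro D _
      split_ifs with h
      · rfl
      · rw [Finsupp.notMem_support_iff.1 h, zero_mul]
    rw [Finset.sum_congr rfl h3]
    by_cases h : ∅ ∈ c.support
    · rw [← Finset.add_sum_erase _ _ h, tr_empty]
    · rw [Finset.erase_eq_of_notMem h, Finsupp.notMem_support_iff.1 h]; simp
  have h3 := h2 1
  have h4 : (shift G).pb 1 S = S := by ext; simp
  have h5 : ∀ D : Finset G, tr 1 D = D := fun D => by ext; simp [tr, -Equiv.mulLeft_one]
  simp only [h4, h5, inter_self] at h3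
  have h6 : ∀ g, (bern G).real (S ∆ (shift G).pb g S) =
      2 * (bern G).real S - 2 * (bern G).real (S ∩ (shift G).pb g S) := by
    intro g
    have hS' := (shift G).measurableSet_pb g hS
    have e1 := measureReal_inter_add_sdiff (μ := bern G) (s := S) hS'
    have e2 := measureReal_inter_add_sdiff (μ := bern G) (s := (shift G).pb g S) hS
    have e3 : (bern G).real ((shift G).pb g S) = (bern G).real S := by
      simp [Measure.real, (shift G).measure_pb g hS]
    rw [Set.symmDiff_def, measureReal_union disjoint_sdiff_sdiff (hS'.diff hS)]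
    rw [inter_comm] at e2
    linarith
  have h7 := gap_coef hι w H hd hw c
  simp only [h6, h2, Finset.sum_sub_distrib, Finset.sum_add_distrib, ← Finset.mul_sum,
    Finset.sum_const, Finset.card_univ, hι, nsmul_eq_mul]
  rw [h1] at h3 ⊢
  push_cast
  nlinarith

theorem bern_gap (S : Set (G → Bool)) (hS : MeasurableSet S) :
    32 * ((bern G).real S * (1 - (bern G).real S)) ≤
      ∑ n, (bern G).real (S ∆ (shift G).pb (w n) S) := by
  let W := Submodule.span ℝ (range (χ (G := G)))
  have hmul : ∀ f ∈ W, ∀ g ∈ W, f * g ∈ W := by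
    intro f hf g hg
    have := Submodule.mul_mem_mul hf hg
    rw [Submodule.span_mul_span] at this
    refine Submodule.span_mono ?_ this
    rintro _ ⟨_, ⟨D, rfl⟩, _, ⟨E, rfl⟩, rfl⟩
    exact ⟨D ∆ E, funext fun ω => (χ_mul D E ω).symm⟩
  have hone : (1 : (G → Bool) → ℝ) ∈ W := Submodule.subset_span ⟨∅, funext χ_empty⟩
  let C : Set (Set (G → Bool)) := {T | MeasurableSet T ∧ T.indicator 1 ∈ W}
  have hC : IsSetRing C := by
    refine ⟨⟨MeasurableSet.empty, by rw [indicator_empty']; exact W.zero_mem⟩, ?_, ?_⟩
    · rintro s t ⟨hs, hs'⟩ ⟨ht, ht'⟩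
      refine ⟨hs.union ht, ?_⟩
      convert W.sub_mem (W.add_mem hs' ht') (hmul _ hs' _ ht') using 1
      ext ω
      by_cases h1 : ω ∈ s <;> by_cases h2 : ω ∈ t <;> simp [h1, h2]
    · rintro s t ⟨hs, hs'⟩ ⟨ht, ht'⟩
      refine ⟨hs.diff ht, ?_⟩
      convert W.sub_mem hs' (hmul _ hs' _ ht') using 1
      ext ω
      by_cases h1 : ω ∈ s <;> by_cases h2 : ω ∈ t <;> simp [h1, h2]
  have hgen : (inferInstance : MeasurableSpace (G → Bool)) = MeasurableSpace.generateFrom C := by
    refine le_antisymm (iSup_le fun h => ?_) (MeasurableSpace.generateFrom_le fun T hT => hT.1)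
    refine Measurable.comap_le (@measurable_to_bool _ (MeasurableSpace.generateFrom C) _ ?_)
    refine MeasurableSpace.measurableSet_generateFrom
      ⟨measurable_pi_apply h (measurableSet_singleton true), ?_⟩
    convert W.smul_mem (1 / 2 : ℝ) (W.add_mem hone (Submodule.subset_span ⟨{h}, rfl⟩)) using 1
    ext ω
    cases hω : ω h <;> simp [χ, sg, hω]; norm_num
  refine le_of_forall_pos_le_add fun ε hε => ?_
  obtain ⟨T, ⟨hT, hT'⟩, hlt⟩ := exists_measure_symmDiff_lt_of_generateFrom_isSetRing (μ := bern G)
    hC ⟨{univ}, countable_singleton _, by simpa [C] using hone, by simp⟩ hgen hS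
    (ε := ENNReal.ofReal (ε / 96)) (by simpa using hε)
  obtain ⟨c, hc⟩ := Finsupp.mem_span_range_iff_exists_finsupp.1 hT'
  have h1 := gap_cyl hι w H hd hw T hT c fun ω => by
    rw [← hc, Finsupp.sum, Finset.sum_apply]; rfl
  have h2 : (bern G).real (T ∆ S) ≤ ε / 96 := ENNReal.toReal_le_of_le_ofReal (by positivity) hlt.le
  have h3 := abs_le.1 ((abs_measureReal_sub_le_measureReal_symmDiff (μ := bern G)
    hT.nullMeasurableSet hS.nullMeasurableSet).trans h2)
  have h4 : ∀ n, (bern G).real (T ∆ (shift G).pb (w n) T) ≤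
      (bern G).real (S ∆ (shift G).pb (w n) S) + ε / 48 := by
    intro n
    have e1 := measureReal_symmDiff_le (μ := bern G) (s := T) (t := S) ((shift G).pb (w n) T)
    have e2 := measureReal_symmDiff_le (μ := bern G) (s := S) (t := (shift G).pb (w n) S)
      ((shift G).pb (w n) T)
    have e3 : (bern G).real ((shift G).pb (w n) S ∆ (shift G).pb (w n) T) =
        (bern G).real (T ∆ S) := by
      rw [symmDiff_comm T S, Measure.real, Measure.real, ← (shift G).measure_pb (w n)
        (hS.symmDiff hT)]
      rfl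
    linarith
  have h5 := Finset.sum_le_sum fun n (_ : n ∈ Finset.univ) => h4 n
  simp only [Finset.sum_add_distrib, Finset.sum_const, Finset.card_univ, hι, nsmul_eq_mul] at h5
  have a1 : 0 ≤ (bern G).real S := measureReal_nonneg
  have a2 : 0 ≤ (bern G).real T := measureReal_nonneg
  have a3 : (bern G).real S ≤ 1 := measureReal_le_one
  have a4 : (bern G).real T ≤ 1 := measureReal_le_one
  push_cast at h5
  have : (bern G).real S * (1 - (bern G).real S) ≤
      (bern G).real T * (1 - (bern G).real T) + ε / 96 := by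
    rcases le_total ((bern G).real S) ((bern G).real T) with h | h <;> nlinarith
  linarith

end Gap

end Vale.Agent.P189
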