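import Vale.Agent.P189.Basic

/-! Finite combinatorics for the folding argument. -/

namespace Vale.Agent.P189

open Finset
open scoped Classical

lemma exists_factor {α β γ : Type} (S : Finset α) (f : α → β) (f' : α → γ)
    (h : ∀ s ∈ S, ∀ s' ∈ S, f s = f s' → f' s = f' s') (hS : S.Nonempty) :
    ∃ g : β → γ, ∀ s ∈ S, g (f s) = f' s := by
  obtain ⟨s0, _⟩ := hS
  refine ⟨fun b => if hb : ∃ s ∈ S, f s = b then f' hb.choose else f' s0, fun s hs => ?_⟩
  have hb : ∃ s' ∈ S, f s' = f s := ⟨s, hs, rfl⟩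
  simp only [dif_pos hb]
  exact h _ hb.choose_spec.1 _ hs hb.choose_spec.2

lemma image_eq_of_factor {α β γ : Type} [DecidableEq β] [DecidableEq γ] {S : Finset α} {f : α → β} {f' : α → γ} {g : β → γ}
    (hg : ∀ s ∈ S, g (f s) = f' s) : S.image f' = (S.image f).image g := by
  rw [image_image]
  exact image_congr fun s hs => (hg s hs).symm

lemma card_coarse {α β γ : Type} [DecidableEq β] [DecidableEq γ] (S : Finset α) (f : α → β) (f' : α → γ)
    (h : ∀ s ∈ S, ∀ s' ∈ S, f s = f s' → f' s = f' s') : (S.image f').card ≤ (S.image f).card := by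
  rcases S.eq_empty_or_nonempty with rfl | hS
  · simp
  obtain ⟨g, hg⟩ := exists_factor S f f' h hS
  rw [image_eq_of_factor hg]
  exact card_image_le

lemma card_coarse_lt {α β γ : Type} [DecidableEq β] [DecidableEq γ] (S : Finset α) (f : α → β) (f' : α → γ)
    (h : ∀ s ∈ S, ∀ s' ∈ S, f s = f s' → f' s = f' s') {s s' : α} (hs : s ∈ S) (hs' : s' ∈ S)
    (h1 : f s ≠ f s') (h2 : f' s = f' s') : (S.image f').card + 1 ≤ (S.image f).card := by
  obtain ⟨g, hg⟩ := exists_factor S f f' h ⟨s, hs⟩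
  rw [image_eq_of_factor hg]
  refine lt_of_le_of_ne card_image_le fun he => h1 ?_
  refine card_image_iff.1 he (mem_coe.2 (mem_image_of_mem f hs))
    (mem_coe.2 (mem_image_of_mem f hs')) ?_
  rw [hg s hs, hg s' hs', h2]

variable {V : Type}

/-- class of a point -/
def cl (r : V → V → Prop) (v : V) : Set V := {w | r v w}

lemma cl_eq {r : V → V → Prop} (hr : Equivalence r) {v w : V} : cl r v = cl r w ↔ r v w := by
  constructor
  · intro h
    have : w ∈ cl r w := hr.refl w
    rw [← h] at this; exact this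
  · intro h
    ext u
    exact ⟨fun h' => hr.trans (hr.symm h) h', fun h' => hr.trans h h'⟩

/-- conditional merging of two classes -/
def merge (c : Prop) (r : V → V → Prop) (p q : V) (v w : V) : Prop :=
  r v w ∨ (c ∧ ((r v p ∧ r q w) ∨ (r v q ∧ r p w)))

lemma merge_equiv {c : Prop} {r : V → V → Prop} (hr : Equivalence r) (p q : V) :
    Equivalence (merge c r p q) := by
  refine ⟨fun v => Or.inl (hr.refl v), ?_, ?_⟩
  · rintro v w (h | ⟨hc, ⟨h1, h2⟩ | ⟨h1, h2⟩⟩)
    · exact Or.inl (hr.symm h)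
    · exact Or.inr ⟨hc, Or.inr ⟨hr.symm h2, hr.symm h1⟩⟩
    · exact Or.inr ⟨hc, Or.inl ⟨hr.symm h2, hr.symm h1⟩⟩
  · rintro u v w (h | ⟨hc, ⟨h1, h2⟩ | ⟨h1, h2⟩⟩) (h' | ⟨hc', ⟨h3, h4⟩ | ⟨h3, h4⟩⟩)
    · exact Or.inl (hr.trans h h')
    · exact Or.inr ⟨hc', Or.inl ⟨hr.trans h h3, h4⟩⟩
    · exact Or.inr ⟨hc', Or.inr ⟨hr.trans h h3, h4⟩⟩
    · exact Or.inr ⟨hc, Or.inl ⟨h1, hr.trans h2 h'⟩⟩
    · exact Or.inr ⟨hc, Or.inl ⟨h1, h4⟩⟩
    · exact Or.inl (hr.trans h1 h4)
    · exact Or.inr ⟨hc, Or.inr ⟨h1, hr.trans h2 h'⟩⟩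
    · exact Or.inl (hr.trans h1 h4)
    · exact Or.inr ⟨hc, Or.inr ⟨h1, h4⟩⟩

variable [Fintype V]

/-- number of classes -/
noncomputable def nV (r : V → V → Prop) : ℕ := (univ.image (cl r)).card

/-- number of edge classes -/
noncomputable def nE (r r' : V → V → Prop) (P : V × V → Prop) : ℕ :=
  ((univ.filter P).image fun p => (cl r p.1, cl r' p.2)).card

lemma nV_le (r : V → V → Prop) : nV r ≤ Fintype.card V := card_image_le

lemma nV_eq : nV (fun v w : V => v = w) = Fintype.card V := by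
  refine card_image_of_injective _ fun v w h => ?_
  exact (cl_eq eq_equivalence).1 h

lemma nE_le (r r' : V → V → Prop) (P : V × V → Prop) :
    nE r r' P ≤ ∑ p : V × V, if P p then 1 else 0 := by
  rw [← card_filter]; exact card_image_le

lemma nV_merge {c : Prop} {r : V → V → Prop} (hr : Equivalence r) (p q : V) :
    nV r ≤ nV (merge c r p q) + if c ∧ ¬ r p q then 1 else 0 := by
  have hr' := merge_equiv (c := c) hr p q
  split_ifs with h
  · have h1 : univ.image (cl r) ⊆ insert (cl r p) ((univ.filter fun v => ¬ r v p).image (cl r)) := by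
      intro z hz
      obtain ⟨v, -, rfl⟩ := mem_image.1 hz
      by_cases hv : r v p
      · exact mem_insert.2 (Or.inl ((cl_eq hr).2 hv))
      · exact mem_insert_of_mem (mem_image_of_mem _ (by simpa using hv))
    refine (card_le_card h1).trans ((card_insert_le _ _).trans (Nat.add_le_add_right ?_ 1))
    refine (card_coarse _ (cl (merge c r p q)) _ fun v hv w hw h => ?_).trans
      (card_le_card (image_subset_image (filter_subset _ _)))
    rw [cl_eq hr'] at h
    rw [cl_eq hr]
    simp only [mem_filter, mem_univ, true_and] at hv hw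
    rcases h with h | ⟨_, ⟨h1, _⟩ | ⟨_, h2⟩⟩
    exacts [h, absurd h1 hv, absurd (hr.symm h2) hw]
  · refine card_coarse _ _ _ fun v _ w _ h' => ?_
    rw [cl_eq hr'] at h'
    rw [cl_eq hr]
    rcases h' with h' | ⟨hc, h'⟩
    · exact h'
    · have hpq : r p q := by by_contra h''; exact h ⟨hc, h''⟩
      rcases h' with ⟨h1, h2⟩ | ⟨h1, h2⟩
      exacts [hr.trans h1 (hr.trans hpq h2), hr.trans h1 (hr.trans (hr.symm hpq) h2)]

section
variable {r1 r1' r2 r2' : V → V → Prop} (h1 : Equivalence r1) (h1' : Equivalence r1')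
  (h2 : Equivalence r2) (h2' : Equivalence r2') (hl : ∀ v w, r1 v w → r2 v w)
  (hl' : ∀ v w, r1' v w → r2' v w) (P : V × V → Prop)
include h1 h1' h2 h2' hl hl'

lemma nE_mono : nE r2 r2' P ≤ nE r1 r1' P := by
  refine card_coarse _ _ _ fun p _ q _ h => ?_
  simp only [Prod.mk.injEq, cl_eq h1, cl_eq h1', cl_eq h2, cl_eq h2'] at h ⊢
  exact ⟨hl _ _ h.1, hl' _ _ h.2⟩

lemma nE_lt {p q : V × V} (hp : P p) (hq : P q) (hn : ¬ (r1 p.1 q.1 ∧ r1' p.2 q.2))
    (hy : r2 p.1 q.1 ∧ r2' p.2 q.2) : nE r2 r2' P + 1 ≤ nE r1 r1' P := by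
  refine card_coarse_lt _ _ _ (fun p _ q _ h => ?_) (s := p) (s' := q) (by simpa using hp)
    (by simpa using hq) ?_ ?_
  · simp only [Prod.mk.injEq, cl_eq h1, cl_eq h1', cl_eq h2, cl_eq h2'] at h ⊢
    exact ⟨hl _ _ h.1, hl' _ _ h.2⟩
  · simpa only [ne_eq, Prod.mk.injEq, cl_eq h1, cl_eq h1'] using hn
  · simpa only [Prod.mk.injEq, cl_eq h2, cl_eq h2'] using hy

end

lemma nE_split {r r' : V → V → Prop} (ρ ρ' : V → ℕ) (hρ : ∀ v w, cl r v = cl r w → ρ v = ρ w)
    (hρ' : ∀ v w, cl r' v = cl r' w → ρ' v = ρ' w) (P P0 : V × V → Prop)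
    (h0 : ∀ p, P0 p → P p ∧ ρ p.1 = 0 ∧ ρ' p.2 = 0) :
    nE r r' P0 + nE r r' (fun p => P p ∧ ρ' p.2 < ρ p.1) + nE r r' (fun p => P p ∧ ρ p.1 < ρ' p.2)
      ≤ nE r r' P := by
  unfold nE
  rw [← card_union_of_disjoint, ← card_union_of_disjoint]
  · refine card_le_card (union_subset (union_subset ?_ ?_) ?_) <;>
      refine image_subset_image fun p hp => ?_ <;> simp only [mem_filter, mem_univ, true_and] at *
    exacts [(h0 p hp).1, hp.1, hp.1]
  · rw [disjoint_left]
    intro z hz hz'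
    obtain ⟨q, hq, rfl⟩ := mem_image.1 hz'
    simp only [mem_filter, mem_univ, true_and] at hq
    rcases mem_union.1 hz with hz | hz <;> obtain ⟨p, hp, he⟩ := mem_image.1 hz <;>
      simp only [mem_filter, mem_univ, true_and, Prod.mk.injEq] at hp he <;>
      have e1 := hρ _ _ he.1 <;> have e2 := hρ' _ _ he.2
    · have := h0 p hp; omega
    · omega
  · rw [disjoint_left]
    intro z hz hz'
    obtain ⟨q, hq, rfl⟩ := mem_image.1 hz'
    obtain ⟨p, hp, he⟩ := mem_image.1 hz
    simp only [mem_filter, mem_univ, true_and, Prod.mk.injEq] at hp he hq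
    have e1 := hρ _ _ he.1
    have := h0 p hp
    omega

lemma nE_three (r r' : V → V → Prop) (p1 p2 p3 : V × V) :
    nE r r' (fun p => p = p1 ∨ p = p2 ∨ p = p3) =
      ({(cl r p1.1, cl r' p1.2), (cl r p2.1, cl r' p2.2), (cl r p3.1, cl r' p3.2)} :
        Finset (Set V × Set V)).card := by
  unfold nE
  congr 1
  ext z
  simp only [mem_image, mem_filter, mem_univ, true_and, mem_insert, mem_singleton]
  constructor
  · rintro ⟨p, rfl | rfl | rfl, rfl⟩ <;> simp
  · rintro (rfl | rfl | rfl)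
    exacts [⟨p1, by simp, rfl⟩, ⟨p2, by simp, rfl⟩, ⟨p3, by simp, rfl⟩]

section Curv
variable {κ κ' T : Type} [DecidableEq κ] [DecidableEq κ']

lemma out_three (O A B : κ) (A' B' O' : κ') :
    1 + (if (A = O ∧ A' ≠ B') ∨ (B = O ∧ A' ≠ O') then 1 else 0) +
      (({A, B} : Finset κ).erase O).card ≤
        ({(O, A'), (A, B'), (B, O')} : Finset (κ × κ')).card := by
  set S : Finset (κ × κ') := {(O, A'), (A, B'), (B, O')} with hS
  rw [← card_filter_add_card_filter_not (s := S) (fun p => p.1 = O)]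
  refine add_le_add ?_ ?_
  · split_ifs with h
    · rw [show 1 + 1 = 2 from rfl, Nat.succ_le_iff, one_lt_card]
      rcases h with ⟨h1, h2⟩ | ⟨h1, h2⟩
      · exact ⟨(O, A'), by simp [hS], (A, B'), by simp [hS, h1], by simp [h2]⟩
      · exact ⟨(O, A'), by simp [hS], (B, O'), by simp [hS, h1], by simp [h2]⟩
    · exact card_pos.2 ⟨(O, A'), by simp [hS]⟩
  · refine le_trans (card_le_card ?_) (card_image_le (f := Prod.fst))
    intro z hz
    simp only [mem_erase, mem_insert, mem_singleton] at hz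
    obtain ⟨hz, rfl | rfl⟩ := hz
    · exact mem_image.2 ⟨(z, B'), by simp [hS, hz], rfl⟩
    · exact mem_image.2 ⟨(z, O'), by simp [hS, hz], rfl⟩

lemma in_three (O A B : κ) (O' A' B' : κ') :
    1 + (({A, B} : Finset κ).erase O).card ≤
        ({(O', A), (A', B), (B', O)} : Finset (κ' × κ)).card := by
  refine le_trans ?_ (card_image_le (f := Prod.snd))
  rw [add_comm, ← card_insert_of_notMem (notMem_erase O _)]
  refine card_le_card fun z hz => ?_
  simp only [mem_erase, mem_insert, mem_singleton, image_insert, image_singleton] at hz ⊢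
  tauto

lemma sum_card_eq [Fintype T] (F : T → Finset κ) (C : Finset κ) (h : ∀ k, F k ⊆ C) :
    ∑ k, (F k).card = ∑ c ∈ C, (univ.filter fun k => c ∈ F k).card := by
  simp_rw [card_filter]
  rw [sum_comm]
  refine sum_congr rfl fun k _ => ?_
  rw [← card_filter, filter_mem_eq_inter, inter_eq_right.2 (h k)]

lemma curv [Fintype T] (f g : T ≃ T) (hfg : ∀ i, f (f i) ≠ g i) (O : κ) (A B : T → κ) :
    2 * ((univ.image A ∪ univ.image B).erase O).card +
      ∑ k, (if A k = B (f.symm k) ∧ A k ≠ O then 1 else 0) ≤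
      ∑ k, (({A (f.symm k), B (g.symm k)} : Finset κ).erase O).card +
        ∑ k, (({A k, B (f.symm k)} : Finset κ).erase O).card := by
  set C := (univ.image A ∪ univ.image B).erase O with hC
  have hsub : ∀ i j, ({A i, B j} : Finset κ).erase O ⊆ C := by
    intro i j
    refine erase_subset_erase _ fun z hz => ?_
    simp only [mem_insert, mem_singleton] at hz
    rcases hz with rfl | rfl <;> simp
  rw [sum_card_eq _ C fun k => hsub _ _, sum_card_eq _ C fun k => hsub _ _, ← sum_add_distrib,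
    ← card_filter, card_eq_sum_card_fiberwise (f := A) (t := C)
      (s := univ.filter fun k => A k = B (f.symm k) ∧ A k ≠ O), mul_comm, ← smul_eq_mul,
    ← sum_const, ← sum_add_distrib]
  · refine sum_le_sum fun c hc => ?_
    have hcO : c ≠ O := (mem_erase.1 hc).1
    rcases ((univ.filter fun k => A k = B (f.symm k) ∧ A k ≠ O).filter
      fun k => A k = c).eq_empty_or_nonempty with h | ⟨k, hk⟩
    · rw [h, card_empty, add_zero]
      have := (mem_erase.1 hc).2
      simp only [mem_union, mem_image, mem_univ, true_and] at this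
      refine add_le_add (a := 1) (c := 1) (card_pos.2 ?_) (card_pos.2 ?_)
      · rcases this with ⟨i, rfl⟩ | ⟨i, rfl⟩
        · exact ⟨f i, by simp [hcO]⟩
        · exact ⟨g i, by simp [hcO]⟩
      · rcases this with ⟨i, rfl⟩ | ⟨i, rfl⟩
        · exact ⟨i, by simp [hcO]⟩
        · exact ⟨f i, by simp [hcO]⟩
    · simp only [mem_filter, mem_univ, true_and] at hk
      refine add_le_add (one_lt_card.2 ⟨f k, by simp [hcO, hk.2], g (f.symm k), ?_, ?_⟩)
        (card_le_card fun j hj => ?_)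
      · simp [hcO, ← hk.1.1, hk.2]
      · simpa using hfg (f.symm k)
      · simp only [mem_filter, mem_univ, true_and] at hj
        simp [hcO, hj.2]
  · intro k hk
    simp only [coe_filter, mem_univ, true_and, Set.mem_ofPred_eq] at hk
    simp [hC, hk.2]

end Curv

end Vale.Agent.P189
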