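import Mathlib

/-! Cost of probability measure preserving actions (statement level definitions). -/

namespace Vale.Agent.P189

open MeasureTheory Set
open scoped ENNReal

/-- A right action of `Γ` on `(X, μ)` by measurable measure preserving maps. -/
structure PMPAction (Γ : Type) [Group Γ] (X : Type) [MeasurableSpace X] (μ : Measure X) where
  act : X → Γ → X
  act_one : ∀ x, act x 1 = x
  act_mul : ∀ x g h, act (act x g) h = act x (g * h)
  mp : ∀ g, MeasurePreserving (fun x => act x g) μ μ

variable {Γ : Type} [Group Γ] {X : Type} [MeasurableSpace X] {μ : Measure X}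

/-- Every `g ≠ 1` fixes a null set of points. -/
def PMPAction.EssFree (a : PMPAction Γ X μ) : Prop :=
  ∀ g : Γ, g ≠ 1 → μ {x | a.act x g = x} = 0

/-- A graphing of the orbit equivalence relation: a countable family of measure preserving Borel
bijections `φ n : A n → B n` between Borel sets, moving each point inside its orbit. -/
structure Graphing (a : PMPAction Γ X μ) where
  A : ℕ → Set X
  B : ℕ → Set X
  φ : ℕ → X → X
  measA : ∀ n, MeasurableSet (A n)
  measB : ∀ n, MeasurableSet (B n)
  measφ : ∀ n, Measurable (φ n)
  bij : ∀ n, BijOn (φ n) (A n) (B n)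
  mp : ∀ n, MeasurePreserving (φ n) (μ.restrict (A n)) (μ.restrict (B n))
  orbit : ∀ n, ∀ x ∈ A n, ∃ g : Γ, φ n x = a.act x g

/-- For almost every `x`, every point of the orbit of `x` is reached from `x` by a finite chain of
the maps `φ n` and their inverses. -/
def Graphing.Generates {a : PMPAction Γ X μ} (Φ : Graphing a) : Prop :=
  ∀ᵐ x ∂μ, ∀ g : Γ,
    Relation.EqvGen (fun y z => ∃ n, y ∈ Φ.A n ∧ z = Φ.φ n y) x (a.act x g)

/-- The cost of a graphing. -/
noncomputable def Graphing.cost {a : PMPAction Γ X μ} (Φ : Graphing a) : ℝ≥0∞ :=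
  ∑' n, μ (Φ.A n)

/-- The cost of an action: the infimum of the costs of the generating graphings. -/
noncomputable def PMPAction.cost (a : PMPAction Γ X μ) : ℝ≥0∞ :=
  ⨅ (Φ : Graphing a) (_ : Φ.Generates), Φ.cost

end Vale.Agent.P189
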