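import Vale.Agent.P189.Basic

/-! From graphings to finite letter graphs. -/

namespace Vale.Agent.P189

open MeasureTheory Set
open scoped ENNReal

variable {G : Type} [Group G] {X : Type} [MeasurableSpace X] {μ : Measure X}
  {a : PMPAction G X μ} {V : Type}

lemma graphing_to_family [StandardBorelSpace X] [Countable G] (ha : a.EssFree) (Φ : Graphing a)
    (hΦ : Φ.Generates) : ∃ D : Unit × G × Unit → Set X, (∀ k, MeasurableSet (D k)) ∧
      cst μ D ≤ Φ.cost ∧ ∀ᵐ x ∂μ, ∀ g, Gen a (fun x v g w => x ∈ D (v, g, w)) x () g () := by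
  let B : ℕ × G → Set X := fun k => Φ.A k.1 ∩ {x | Φ.φ k.1 x = a.act x k.2}
  have hB : ∀ k, MeasurableSet (B k) := fun k =>
    (Φ.measA _).inter (measurableSet_eq_fun (Φ.measφ _) (a.meas _))
  refine ⟨fun k => ⋃ n, B (n, k.2.1), fun k => MeasurableSet.iUnion fun n => hB _, ?_, ?_⟩
  · refine (cst_push (μ := μ) (fun k : ℕ × G => ((), k.2, ())) (B := B) ?_).trans ?_
    · rintro ⟨_, g, _⟩ x hx
      obtain ⟨n, hn⟩ := mem_iUnion.1 hx
      exact ⟨(n, g), rfl, hn⟩
    · unfold cst Graphing.cost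
      rw [ENNReal.tsum_prod']
      refine ENNReal.tsum_le_tsum fun n => ?_
      rw [← measure_iUnion₀ ?_ fun g => (hB _).nullMeasurableSet]
      · exact measure_mono (iUnion_subset fun g => inter_subset_left)
      · intro g g' hne
        refine measure_mono_null ?_ (ae_iff.1 ha.ae_free)
        rintro x ⟨⟨_, h1⟩, _, h2⟩ h
        exact hne (h g g' (h1.symm.trans h2))
  · filter_upwards [hΦ, ha.ae_free] with x hx hfree g
    have key : ∀ y z, Relation.EqvGen (fun y z => ∃ n, y ∈ Φ.A n ∧ z = Φ.φ n y) y z →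
        ∃ h, z = a.act y h ∧
          Gen a (fun x (v : Unit) g (w : Unit) => x ∈ ⋃ n, B (n, (v, g, w).2.1)) y () h () := by
      intro y z h
      induction h with
      | rel y z h =>
        obtain ⟨n, hy, rfl⟩ := h
        obtain ⟨h, hh⟩ := Φ.orbit n y hy
        exact ⟨h, hh, Gen.of (mem_iUnion.2 ⟨n, hy, hh⟩)⟩
      | refl y => exact ⟨1, by simp, Gen.refl _ _⟩
      | symm y z _ ih =>
        obtain ⟨h, rfl, hh⟩ := ih
        exact ⟨h⁻¹, by simp, hh.symm⟩
      | trans y z w _ _ ih1 ih2 =>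
        obtain ⟨h, rfl, hh⟩ := ih1
        obtain ⟨k, rfl, hk⟩ := ih2
        exact ⟨h * k, by simp, hh.trans hk⟩
    obtain ⟨h, h1, h2⟩ := key _ _ (hx g)
    rw [hfree g h h1]; exact h2

lemma truncate [Countable V] [Countable G] [IsFiniteMeasure μ] (Fr : V → G → V → Prop)
    (D : V × G × V → Set X) (hD : ∀ k, MeasurableSet (D k)) (T : Finset (V × G × V))
    (hT : ∀ᵐ x ∂μ, ∀ τ ∈ T,
      Gen a (fun x v g w => Fr v g w ∨ x ∈ D (v, g, w)) x τ.1 τ.2.1 τ.2.2) :
    ∃ (F : Finset (V × G × V)) (D' : V × G × V → Set X), (∀ k, MeasurableSet (D' k)) ∧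
      ∑ k ∈ F, μ (D' k) ≤ cst μ D + 1 ∧ ∀ x, ∀ τ ∈ T,
        Gen a (fun x v g w => Fr v g w ∨ ((v, g, w) ∈ F ∧ x ∈ D' (v, g, w))) x τ.1 τ.2.1 τ.2.2 := by
  classical
  obtain ⟨enc, henc⟩ := exists_injective_nat (V × G × V)
  let R : ℕ → X → V → G → V → Prop := fun n x v g w =>
    Fr v g w ∨ (enc (v, g, w) < n ∧ x ∈ D (v, g, w))
  have hRm : ∀ {m n}, m ≤ n → ∀ x v g w, R m x v g w → R n x v g w := by
    intro m n h x v g w hr
    exact hr.imp_right fun h' => ⟨h'.1.trans_le h, h'.2⟩
  have hex : ∀ x v g w, Gen a (fun x v g w => Fr v g w ∨ x ∈ D (v, g, w)) x v g w →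
      ∃ n, Gen a (R n) x v g w := by
    intro x v g w h
    refine Gen.induction (P := fun x v g w => ∃ n, Gen a (R n) x v g w) ?_ ?_ h
    · exact fun x v => ⟨0, Gen.refl _ _⟩
    · rintro x v h u g w hs _ ⟨n, hn⟩
      have : ∃ m, Sy a (R m) x v h u := by
        rcases hs with (hs | hs) | (hs | hs)
        · exact ⟨0, Or.inl (Or.inl hs)⟩
        · exact ⟨_, Or.inl (Or.inr ⟨Nat.lt_succ_self _, hs⟩)⟩
        · exact ⟨0, Or.inr (Or.inl hs)⟩
        · exact ⟨_, Or.inr (Or.inr ⟨Nat.lt_succ_self _, hs⟩)⟩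
      obtain ⟨m, hm⟩ := this
      exact ⟨max m n, ((Gen.single hm).mono (hRm (le_max_left _ _))).trans
        (hn.mono (hRm (le_max_right _ _)))⟩
  let Bad : ℕ → Set X := fun n => {x | ∃ τ ∈ T, ¬ Gen a (R n) x τ.1 τ.2.1 τ.2.2}
  have hBm : ∀ n, MeasurableSet (Bad n) := by
    intro n
    refine Measurable.setOf (Measurable.exists fun τ => measurable_const.and (Measurable.not ?_))
    exact measurable_Gen (fun v g w => measurable_const.or (measurable_const.and (hD _).mem)) _ _ _
  have hBa : Antitone Bad := by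
    rintro m n h x ⟨τ, h1, h2⟩
    exact ⟨τ, h1, fun h3 => h2 (h3.mono (hRm h))⟩
  have hB0 : μ (⋂ n, Bad n) = 0 := by
    refine measure_mono_null ?_ (ae_iff.1 hT)
    intro x hx hx'
    choose N hN using fun τ (hτ : τ ∈ T) => hex x _ _ _ (hx' τ hτ)
    obtain ⟨τ, hτ, h⟩ := mem_iInter.1 hx (T.attach.sup fun τ => N τ.1 τ.2)
    exact h ((hN τ hτ).mono (hRm (Finset.le_sup (f := fun τ : T => N τ.1 τ.2)
      (Finset.mem_attach _ ⟨τ, hτ⟩))))
  have htend := tendsto_measure_iInter_atTop (μ := μ) (fun n => (hBm n).nullMeasurableSet) hBa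
    ⟨0, measure_ne_top _ _⟩
  rw [hB0] at htend
  have hpos : (0 : ℝ≥0∞) < ((T.card : ℝ≥0∞))⁻¹ := by simp
  obtain ⟨n, hn⟩ := (htend.eventually (ge_mem_nhds hpos)).exists
  refine ⟨(Finset.range n).preimage enc henc.injOn ∪ T,
    fun k => D k ∪ (if k ∈ T then Bad n else ∅), fun k => (hD k).union ?_, ?_, ?_⟩
  · split_ifs
    exacts [hBm n, MeasurableSet.empty]
  · refine (Finset.sum_le_sum fun k _ => measure_union_le _ _).trans ?_
    rw [Finset.sum_add_distrib]
    refine add_le_add (ENNReal.sum_le_tsum _) ?_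
    simp only [apply_ite μ, measure_empty]
    rw [Finset.sum_ite_mem, Finset.sum_const, nsmul_eq_mul, Finset.union_inter_cancel_right]
    calc (T.card : ℝ≥0∞) * μ (Bad n) ≤ T.card * ((T.card : ℝ≥0∞))⁻¹ := by gcongr; exact hn
      _ ≤ 1 := ENNReal.mul_inv_le_one _
  · intro x τ hτ
    by_cases hx : x ∈ Bad n
    · exact Gen.of (Or.inr ⟨Finset.mem_union_right _ hτ, Or.inr (by simpa [hτ] using hx)⟩)
    · have : Gen a (R n) x τ.1 τ.2.1 τ.2.2 := by
        by_contra h
        exact hx ⟨τ, hτ, h⟩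
      refine this.mono fun x v g w h => h.imp_right fun h => ⟨?_, Or.inl h.2⟩
      exact Finset.mem_union_left _ (by simpa using h.1)

section Letters
variable {S : Type} (val : S → G)

/-- value of a signed letter -/
def lt (y : S × Bool) : G := cond y.2 (val y.1) (val y.1)⁻¹

/-- value of a word -/
def ev (l : List (S × Bool)) : G := (l.map (lt val)).prod

@[simp] lemma lt_true (s : S) : lt val (s, true) = val s := rfl
@[simp] lemma lt_false (s : S) : lt val (s, false) = (val s)⁻¹ := rfl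
@[simp] lemma ev_nil : ev val [] = 1 := rfl
@[simp] lemma ev_cons (y : S × Bool) (l : List (S × Bool)) :
    ev val (y :: l) = lt val y * ev val l := by simp [ev]
@[simp] lemma ev_append (l l' : List (S × Bool)) :
    ev val (l ++ l') = ev val l * ev val l' := by simp [ev]

lemma exists_word (h : Subgroup.closure (range val) = ⊤) (s : S) (g : G) :
    ∃ y l, ev val (y :: l) = g := by
  have : ∃ l, ev val l = g := by
    have hg : g ∈ Subgroup.closure (range val) := h ▸ Subgroup.mem_top g
    induction hg using Subgroup.closure_induction_left with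
    | one => exact ⟨[], rfl⟩
    | mul_left g hg k _ ih =>
      obtain ⟨s, rfl⟩ := hg
      obtain ⟨l, rfl⟩ := ih
      exact ⟨(s, true) :: l, by simp⟩
    | inv_mul_cancel g hg k _ ih =>
      obtain ⟨s, rfl⟩ := hg
      obtain ⟨l, rfl⟩ := ih
      exact ⟨(s, false) :: l, by simp⟩
  obtain ⟨l, rfl⟩ := this
  exact ⟨(s, true), (s, false) :: l, by simp⟩

/-- the step relation of a letter graph -/
def LR (D : V × S × V → Set X) (x : X) (v : V) (g : G) (w : V) : Prop :=
  ∃ s, val s = g ∧ x ∈ D (v, s, w)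

lemma normalize {K : Type} [Countable K] (y : K → S × Bool) (p q : K → V) (B : K → Set X)
    (hB : ∀ k, MeasurableSet (B k)) : ∃ D : V × S × V → Set X, (∀ k, MeasurableSet (D k)) ∧
      cst μ D ≤ cst μ B ∧ (∀ k, ∀ x ∈ B k, Sy a (LR val D) x (p k) (lt val (y k)) (q k)) ∧
      ∀ k s, y k = (s, true) → ∀ x ∈ B k, x ∈ D (p k, s, q k) := by
  classical
  let f : K → V × S × V := fun k => cond (y k).2 (p k, (y k).1, q k) (q k, (y k).1, p k)
  let B' : K → Set X := fun k => cond (y k).2 (B k) (a.pb (val (y k).1) (B k))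
  have hB' : ∀ k, MeasurableSet (B' k) := by
    intro k
    simp only [B']
    cases (y k).2
    exacts [a.measurableSet_pb _ (hB k), hB k]
  refine ⟨fun k' => {x | ∃ k, f k = k' ∧ x ∈ B' k}, fun k' => Measurable.setOf
    (Measurable.exists fun k => measurable_const.and (hB' k).mem), ?_, ?_, ?_⟩
  · refine (cst_push f (B := B') fun k' x hx => hx).trans (le_of_eq ?_)
    refine tsum_congr fun k => ?_
    simp only [B']
    cases (y k).2
    exacts [a.measure_pb _ (hB k), rfl]
  · intro k x hx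
    rcases hy : y k with ⟨s, b⟩
    cases b
    · right
      refine ⟨s, by simp, k, by simp [f, hy], by simpa [B', hy] using hx⟩
    · left
      exact ⟨s, by simp, k, by simp [f, hy], by simpa [B', hy] using hx⟩
  · intro k s hy x hx
    exact ⟨k, by simp [f, hy], by simpa [B', hy] using hx⟩

lemma subdivide [IsProbabilityMeasure μ] [Fintype V] [Finite S] {K : Type} [Fintype K]
    (src tgt : K → V) (hd : K → S × Bool) (tl : K → List (S × Bool)) (dom : K → Set X)
    (hdom : ∀ k, MeasurableSet (dom k))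
    (hfull : Full a fun x v g w =>
      ∃ k, src k = v ∧ tgt k = w ∧ ev val (hd k :: tl k) = g ∧ x ∈ dom k) :
    ∃ (V' : Type) (_ : Fintype V') (nd : List (S × Bool) → V → V') (D : V' × S × V' → Set X),
      (∀ k, MeasurableSet (D k)) ∧ cst μ D + Fintype.card V ≤ cst μ dom + Fintype.card V' ∧
      Full a (LR val D) ∧
      (∀ k s, hd k = (s, true) → ∀ x ∈ dom k, x ∈ D (nd [] (src k), s, nd (tl k) (tgt k))) ∧
      (∀ s w v x, w.length < 2 → x ∈ D (nd ((s, true) :: w) v, s, nd w v)) ∧
      (∀ y w v v', w.length < 2 → nd (y :: w) v ≠ nd [] v') := by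
  classical
  set L := 2 + Finset.univ.sup fun k => (tl k).length with hL
  have hLk : ∀ k, (tl k).length ≤ L := fun k =>
    (Finset.le_sup (f := fun k => (tl k).length) (Finset.mem_univ k)).trans (Nat.le_add_left _ _)
  let W := {w : List (S × Bool) // w.length ≤ L}
  have : Finite W := (List.finite_length_le (S × Bool) L).to_subtype
  let _ : Fintype W := Fintype.ofFinite W
  let nd : List (S × Bool) → V → W × V := fun w v =>
    (if h : w.length ≤ L then ⟨w, h⟩ else ⟨[], Nat.zero_le _⟩, v)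
  have hnd : ∀ w v (h : w.length ≤ L), nd w v = (⟨w, h⟩, v) := by
    intro w v h; simp [nd, h]
  let N := {p : W × V // p.1.1 ≠ []}
  obtain ⟨D, hD, hc, hsy, hpos⟩ := normalize (a := a) val (K := K ⊕ N)
    (Sum.elim hd fun p => p.1.1.1.head p.2)
    (Sum.elim (fun k => nd [] (src k)) fun p => p.1)
    (Sum.elim (fun k => nd (tl k) (tgt k)) fun p => nd p.1.1.1.tail p.1.2)
    (Sum.elim dom fun _ => univ) (by rintro (k | p); exacts [hdom k, MeasurableSet.univ])
  have hdown : ∀ w v x, w.length ≤ L → Gen a (LR val D) x (nd w v) (ev val w) (nd [] v) := by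
    intro w v
    induction w with
    | nil => intro x _; exact Gen.refl _ _
    | cons y w ih =>
      intro x h
      have h1 := hsy (Sum.inr ⟨(⟨y :: w, h⟩, v), by simp⟩) x (mem_univ x)
      rw [ev_cons, hnd _ _ h]
      exact Gen.cons h1 (ih _ (by simp at h; omega))
  refine ⟨W × V, inferInstance, nd, D, hD, ?_, ?_, ?_, ?_, ?_⟩
  · rw [cst_sum] at hc
    have h1 : Fintype.card N + Fintype.card V ≤ Fintype.card (W × V) := by
      rw [← Fintype.card_sum]
      refine Fintype.card_le_of_injective (Sum.elim (fun p => p.1) fun v => nd [] v) ?_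
      rintro (p | v) (p' | v') h
      · exact congrArg Sum.inl (Subtype.ext h)
      · exact absurd (congrArg (fun p => p.1.1) h) (by simpa [nd] using p.2)
      · exact absurd (congrArg (fun p => p.1.1) h.symm) (by simpa [nd] using p'.2)
      · simpa [nd] using h
    calc cst μ D + Fintype.card V ≤ cst μ dom + Fintype.card N + Fintype.card V := by
          gcongr
          exact hc.trans (add_le_add le_rfl (cst_le_card _))
      _ ≤ _ := by rw [add_assoc]; gcongr; exact_mod_cast h1
  · rintro x ⟨⟨w, hw⟩, v⟩ g ⟨⟨w', hw'⟩, v'⟩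
    have h2 := (hfull (a.act x (ev val w)) v ((ev val w)⁻¹ * g * ev val w') v').sim
      (R' := LR val D) (nd []) (by
        rintro x v g w ⟨k, rfl, rfl, rfl, hx⟩
        rw [ev_cons]
        exact Gen.cons (hsy (Sum.inl k) x hx) (hdown _ _ _ (hLk k)))
    have h3 := ((hdown w v x hw).trans h2).trans
      ((hdown w' v' (a.act x g) hw').symm.cast (by simp [mul_assoc]) rfl)
    rw [hnd _ _ hw, hnd _ _ hw'] at h3
    simpa [mul_assoc] using h3
  · intro k s hk x hx
    exact hpos (Sum.inl k) s hk x hx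
  · intro s w v x hw
    have h : ((s, true) :: w).length ≤ L := by simp; omega
    rw [hnd _ _ h]
    exact hpos (Sum.inr ⟨(⟨_, h⟩, v), by simp⟩) s rfl x (mem_univ x)
  · intro y w v v' hw h
    have h' : (y :: w).length ≤ L := by simp; omega
    rw [hnd _ _ h', hnd _ _ (Nat.zero_le _)] at h
    simpa using congrArg (fun p => p.1.1) h

end Letters

end Vale.Agent.P189
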