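import Vale.Agent.P189.Bern
import Vale.Agent.P189.Reduce

/-! The group and its cheap action. -/

namespace Vale.Agent.P189

open MeasureTheory Set ProbabilityTheory SemidirectProduct
open scoped ENNReal

variable {T : Type} (J : Subgroup (FreeGroup T))

/-- action on the free group over the cosets -/
noncomputable def cosetAut : FreeGroup T →* MulAut (FreeGroup (FreeGroup T ⧸ J)) where
  toFun α := FreeGroup.freeGroupCongr (MulAction.toPerm α)
  map_one' := MulEquiv.toMonoidHom_injective (FreeGroup.ext_hom _ _ fun x => by simp)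
  map_mul' α β := MulEquiv.toMonoidHom_injective (FreeGroup.ext_hom _ _ fun x => by
    simp [mul_smul])

/-- the group -/
abbrev Gam := FreeGroup (FreeGroup T ⧸ J) ⋊[cosetAut J] FreeGroup T

/-- the stable letter -/
noncomputable def tt : Gam J := inl (FreeGroup.of ((1 : FreeGroup T) : FreeGroup T ⧸ J))

/-- generators -/
noncomputable def gen (s : Option T) : Gam J := s.elim (tt J) fun i => inr (FreeGroup.of i)

lemma cosetAut_of (α : FreeGroup T) (x : FreeGroup T ⧸ J) :
    cosetAut J α (FreeGroup.of x) = FreeGroup.of (α • x) := by simp [cosetAut]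

instance [Countable T] : Countable (FreeGroup T ⧸ J) := QuotientGroup.mk_surjective.countable

instance [Countable T] : Countable (Gam J) := equivProd.injective.countable

instance [Nonempty T] : Infinite (Gam J) := Infinite.of_injective _ inr_injective

lemma tt_comm (j : FreeGroup T) (hj : j ∈ J) : inr j * tt J = tt J * inr j := by
  ext
  · simp only [tt, mul_left, left_inr, right_inr, left_inl, right_inl, one_mul, cosetAut_of,
      map_one, mul_one]
    congr 1
    exact QuotientGroup.eq.2 (by simpa using hj)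
  · simp [tt]

lemma left_mul_tt (g : Gam J) :
    (g * tt J).left = g.left * FreeGroup.of ((rightHom g : FreeGroup T) : FreeGroup T ⧸ J) := by
  simp [tt, cosetAut_of]

lemma closure_gen : Subgroup.closure (range (gen J)) = ⊤ := by
  have h1 : ∀ α, inr α ∈ Subgroup.closure (range (gen J)) := by
    intro α
    induction α using FreeGroup.induction_on with
    | C1 => simp
    | of i => exact Subgroup.subset_closure ⟨some i, rfl⟩
    | inv_of i h => simpa using h
    | mul x y hx hy => rw [map_mul]; exact Subgroup.mul_mem _ hx hy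
  have h2 : ∀ f, inl f ∈ Subgroup.closure (range (gen J)) := by
    intro f
    induction f using FreeGroup.induction_on with
    | C1 => simp
    | of x =>
      obtain ⟨α, rfl⟩ := QuotientGroup.mk_surjective x
      have : (inl (FreeGroup.of (α : FreeGroup T ⧸ J)) : Gam J) = inr α * tt J * inr α⁻¹ := by
        rw [tt, ← inl_aut, cosetAut_of]; simp
      rw [this]
      exact Subgroup.mul_mem _ (Subgroup.mul_mem _ (h1 _) (Subgroup.subset_closure ⟨none, rfl⟩))
        (h1 _)
    | inv_of i h => simpa using h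
    | mul x y hx hy => rw [map_mul]; exact Subgroup.mul_mem _ hx hy
  refine eq_top_iff.2 fun g _ => ?_
  rw [← inl_left_mul_inr_right g]
  exact Subgroup.mul_mem _ (h2 _) (h1 _)

lemma exists_char {C : Type} [CommGroup C] (z : C) : ∃ χ : Gam J →* C, ∀ s, χ (gen J s) = z := by
  refine ⟨lift (FreeGroup.lift fun _ => z) (FreeGroup.lift fun _ => z) fun α => ?_, ?_⟩
  · ext x
    simp [cosetAut_of]
  · rintro (_ | i) <;> simp [gen, tt]

lemma start_or [DecidableEq T] (x : FreeGroup T) (k : T) : (∃ s l, x.toWord = (k, s) :: l) ∨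
    ∃ s l, (FreeGroup.of k * x).toWord = (k, s) :: l := by
  rw [FreeGroup.toWord_mul, FreeGroup.toWord_of, List.singleton_append, FreeGroup.reduce.cons,
    FreeGroup.reduce_toWord]
  rcases x.toWord with _ | ⟨⟨k', s⟩, l⟩
  · exact Or.inr ⟨true, [], rfl⟩
  · by_cases h : k = k'
    · exact Or.inl ⟨s, l, by rw [h]⟩
    · exact Or.inr ⟨true, (k', s) :: l, by simp [h]⟩

lemma gam_gap (k : T) (ks : Fin 32 → T) (h1 : Function.Injective ks) (h2 : ∀ n, ks n ≠ k)
    (S : Set (Gam J → Bool)) (hS : MeasurableSet S) :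
    32 * ((bern (Gam J)).real S * (1 - (bern (Gam J)).real S)) ≤
      ∑ n, (bern (Gam J)).real (symmDiff S
        (((shift (Gam J)).comp inr).pb (FreeGroup.of (ks n) * (FreeGroup.of k)⁻¹) S)) := by
  classical
  let ψ : FreeGroup T →* FreeGroup T := FreeGroup.lift fun i => if i = k then 1 else FreeGroup.of i
  refine bern_gap (Fintype.card_fin 32) (fun n => inr (FreeGroup.of (ks n) * (FreeGroup.of k)⁻¹))
    (fun n => {h | ∃ s l, (ψ (rightHom h)).toWord = (ks n, s) :: l}) ?_ ?_ S hS
  · intro n m hnm
    refine disjoint_left.2 ?_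
    rintro h ⟨s, l, e⟩ ⟨s', l', e'⟩
    rw [e] at e'
    exact hnm (h1 (Prod.mk.inj (List.cons.inj e').1).1)
  · intro n h
    have := start_or (ψ (rightHom h)) (ks n)
    simpa [ψ, h2 n] using this

section Upper
variable {G : Type} [Group G] {X : Type} [MeasurableSpace X] {μ : Measure X}

lemma cost_le_family (a : PMPAction G X μ) {K : Type} [Countable K] (lab : K → G)
    (dom : K → Set X) (hd : ∀ k, MeasurableSet (dom k))
    (h : Full a fun x (_ : Unit) g _ => ∃ k, lab k = g ∧ x ∈ dom k) : a.cost ≤ cst μ dom := by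
  classical
  obtain ⟨enc, henc⟩ := exists_injective_nat K
  let A : ℕ → Set X := fun n => {x | ∃ k, enc k = n ∧ x ∈ dom k}
  have hA : ∀ n, MeasurableSet (A n) := fun n =>
    Measurable.setOf (Measurable.exists fun k => measurable_const.and (hd k).mem)
  let γ : ℕ → G := Function.extend enc lab fun _ => 1
  let Φ : Graphing a :=
    { A := A
      B := fun n => a.pb (γ n)⁻¹ (A n)
      φ := fun n x => a.act x (γ n)
      measA := hA
      measB := fun n => a.measurableSet_pb _ (hA n)
      measφ := fun n => a.meas _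
      bij := fun n => ⟨fun x hx => by simpa using hx, fun x _ y _ hxy => by
        simpa using congrArg (a.act · (γ n)⁻¹) hxy, fun y hy => ⟨_, hy, by simp⟩⟩
      mp := fun n => by
        convert (a.mp (γ n)).restrict_preimage (a.measurableSet_pb (γ n)⁻¹ (hA n)) using 2
        ext x; simp
      orbit := fun n x _ => ⟨_, rfl⟩ }
  refine (iInf₂_le Φ (Filter.Eventually.of_forall fun x g => ?_)).trans
    (cst_push enc fun k x hx => hx)
  refine Gen.induction (P := fun x _ g _ => Relation.EqvGen
    (fun y z => ∃ n, y ∈ Φ.A n ∧ z = Φ.φ n y) x (a.act x g)) ?_ ?_ (h x () g ())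
  · intro x _
    rw [a.act_one]; exact Relation.EqvGen.refl _
  · intro x _ h _ g _ hs _ ih
    rw [a.act_act] at ih
    refine Relation.EqvGen.trans _ _ _ ?_ ih
    rcases hs with ⟨k, rfl, hk⟩ | ⟨k, hk, hk'⟩
    · exact Relation.EqvGen.rel _ _ ⟨enc k, ⟨k, rfl, hk⟩, by simp [Φ, γ, henc.extend_apply]⟩
    · exact Relation.EqvGen.symm _ _ (Relation.EqvGen.rel _ _
        ⟨enc k, ⟨k, rfl, hk'⟩, by simp [Φ, γ, henc.extend_apply, hk]⟩)

/-- extension of an action by a finite cyclic quotient -/
def cyc (a : PMPAction G X μ) [SFinite μ] {M : ℕ} [NeZero M]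
    (χ : G →* Multiplicative (ZMod M)) :
    PMPAction G (X × ZMod M) (μ.prod (uniformOn univ)) where
  act p g := (a.act p.1 g, p.2 + (χ g).toAdd)
  act_one p := by simp
  act_mul p g h := by simp [add_assoc]
  mp g := (a.mp g).prod (unif_mp (Equiv.addRight (χ g).toAdd))

lemma cyc_free {a : PMPAction G X μ} [SFinite μ] {M : ℕ} [NeZero M]
    (χ : G →* Multiplicative (ZMod M)) (ha : a.EssFree) : (cyc a χ).EssFree := by
  intro g hg
  refine measure_mono_null (t := {x | a.act x g = x} ×ˢ univ)
    (fun p hp => ⟨congrArg Prod.fst hp, mem_univ _⟩) ?_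
  rw [Measure.prod_prod, ha g hg, zero_mul]

end Upper

lemma cyc_cost [Fintype T] {X : Type} [MeasurableSpace X] {μ : Measure X} [IsProbabilityMeasure μ]
    (a : PMPAction (Gam J) X μ) {M : ℕ} [NeZero M] (χ : Gam J →* Multiplicative (ZMod M))
    (hχ : ∀ s, χ (gen J s) = Multiplicative.ofAdd 1) (f g : T → T)
    (hJ : ∀ i, FreeGroup.of i * FreeGroup.of (f i) * FreeGroup.of (g i) ∈ J) :
    (cyc a χ).cost ≤ 1 + 3 * Fintype.card T / M := by
  let u : T → Gam J := fun i => inr (FreeGroup.of i * FreeGroup.of (f i) * FreeGroup.of (g i))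
  let lab : Unit ⊕ T × Option Bool → Gam J :=
    Sum.elim (fun _ => tt J) fun p => p.2.elim (u p.1) fun _ => gen J (some p.1)
  let dom : Unit ⊕ T × Option Bool → Set (X × ZMod M) :=
    Sum.elim (fun _ => univ) fun p => univ ×ˢ {if p.2 = some true then 1 else 0}
  refine (cost_le_family _ lab dom ?_ ?_).trans (le_of_eq ?_)
  · rintro (_ | p)
    exacts [MeasurableSet.univ, MeasurableSet.univ.prod (measurableSet_singleton _)]
  · set R := fun (x : X × ZMod M) (_ : Unit) g (_ : Unit) => ∃ k, lab k = g ∧ x ∈ dom k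
    have ht : ∀ p, Gen (cyc a χ) R p () (tt J) () := fun p =>
      Gen.of ⟨Sum.inl (), rfl, mem_univ _⟩
    have htn : ∀ (n : ℕ) p, Gen (cyc a χ) R p () (tt J ^ n) () := by
      intro n
      induction n with
      | zero => exact fun p => Gen.refl _ _
      | succ n ih => intro p; rw [pow_succ]; exact (ih p).trans (ht _)
    have hu : ∀ i p, Gen (cyc a χ) R p () (u i) () := by
      intro i p
      have h1 := htn (-p.2).val p
      have h2 : Gen (cyc a χ) R ((cyc a χ).act p (tt J ^ (-p.2).val)) () (u i) () := by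
        refine Gen.of ⟨Sum.inr (i, none), rfl, mem_univ _, ?_⟩
        have : χ (tt J) = Multiplicative.ofAdd 1 := hχ none
        simp [cyc, this]
      have h3 : tt J ^ (-p.2).val * u i = u i * tt J ^ (-p.2).val :=
        (Commute.pow_right (tt_comm J _ (hJ i)) _).symm
      have h4 := (htn (-p.2).val ((cyc a χ).act p (u i))).symm
      exact ((h1.trans h2).trans (h4.cast (by simp [h3]) rfl)).cast rfl (by simp [h3])
    have hb : ∀ n : ℕ, (∀ i p, p.2 = -(n : ZMod M) → Gen (cyc a χ) R p () (gen J (some i)) ()) ∧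
        ∀ i p, p.2 = -(n : ZMod M) + 1 → Gen (cyc a χ) R p () (gen J (some i)) () := by
      intro n
      induction n with
      | zero =>
        exact ⟨fun i p hp => Gen.of ⟨Sum.inr (i, some false), rfl, mem_univ _, by simpa using hp⟩,
          fun i p hp => Gen.of ⟨Sum.inr (i, some true), rfl, mem_univ _, by simpa using hp⟩⟩
      | succ n ih =>
        refine ⟨fun i p hp => ?_, fun i p hp => ih.1 i p (by rw [hp]; push_cast; ring)⟩
        have h1 := ih.1 (f i) ((cyc a χ).act p (gen J (some i))) (by simp [cyc, hχ, hp])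
        have h2 := ih.2 (g i) ((cyc a χ).act ((cyc a χ).act p (gen J (some i)))
          (gen J (some (f i)))) (by simp [cyc, hχ, hp])
        have h3 := (hu i p).trans ((h1.trans h2).symm.cast (by simp [u, gen, mul_assoc]) rfl)
        exact h3.cast rfl (by simp [u, gen, mul_assoc])
    refine full_of_gens () _ (closure_gen J) (fun x _ => ⟨1, Gen.refl _ _⟩) ?_
    rintro p _ ⟨_ | i, rfl⟩
    · exact ht p
    · exact (hb (-p.2).val).1 i p (by simp)
  · rw [cst_sum]
    simp [cst, dom, uniformOn_univ, ENNReal.div_eq_inv_mul, mul_comm]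

end Vale.Agent.P189
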