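import Vale.Agent.P189.Reduce

/-! Step I: replacing the stable letter edges by edges with labels in the base group. -/

namespace Vale.Agent.P189

open MeasureTheory Set
open scoped ENNReal

/-- data for step I -/
structure SI (A Γ X V : Type) [Group A] [Group Γ] [MeasurableSpace X] (μ : Measure X) where
  a : PMPAction Γ X μ
  J : Subgroup A
  ι : A →* Γ
  t : Γ
  o : V
  Pc : V × A × V → Set X
  Lk : V × V → Set X
  φ : X → V × V → ℝ
  mPc : ∀ k, MeasurableSet (Pc k)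
  mLk : ∀ k, MeasurableSet (Lk k)
  mφ : ∀ l, Measurable fun x => φ x l
  iφ : ∀ x l y l', φ x l = φ y l' → x = y ∧ l = l'
  comm : ∀ j ∈ J, ι j * t = t * ι j
  free : a.EssFree
  rt : Γ →* A
  lf : Γ → FreeGroup (A ⧸ J)
  rt_ι : ∀ α, rt (ι α) = α
  rt_t : rt t = 1
  lf_ι : ∀ g α, lf (g * ι α) = lf g
  lf_t : ∀ g, lf (g * t) = lf g * FreeGroup.of (rt g : A ⧸ J)
  full : Full a fun x v g w => (∃ α, ι α = g ∧ x ∈ Pc (v, α, w)) ∨ (g = t ∧ x ∈ Lk (v, w))

namespace SI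
variable {A Γ X V : Type} [Group A] [Group Γ] [MeasurableSpace X] {μ : Measure X}
  (c : SI A Γ X V μ)

/-- steps -/
def RA (Q : V × A × V → Set X) (x : X) (v : V) (α : A) (w : V) : Prop :=
  (v = c.o ∧ w = c.o ∧ α ∈ c.J) ∨ x ∈ c.Pc (v, α, w) ∨ x ∈ Q (v, α, w)

/-- paths -/
def GA (Q : V × A × V → Set X) : X → V → A → V → Prop := Gen (c.a.comp c.ι) (c.RA Q)

/-- position of the two ends of a link -/
def ps (s : Bool) (x : X) : X := cond s (c.a.act x c.t) x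

/-- kinds of the two ends of a link -/
def en (s : Bool) (l : V × V) : V := cond s l.2 l.1

/-- the two links are tied on both sides -/
def E (Q : V × A × V → Set X) (x : X) (l : V × V) (j : A) (l' : V × V) : Prop :=
  j ∈ c.J ∧ c.a.act x (c.ι j) ∈ c.Lk l' ∧ ∀ s, c.GA Q (c.ps s x) (en s l) j (en s l')

/-- absorbed links -/
def Ab (Q : V × A × V → Set X) (x : X) (l : V × V) : Prop :=
  ∀ s, c.GA Q (c.ps s x) (en s l) 1 c.o

/-- non absorbed links -/
def NA (Q : V × A × V → Set X) (l : V × V) : Set X := {x | x ∈ c.Lk l ∧ ¬ c.Ab Q x l}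

/-- non absorbed roots -/
def NR (Q : V × A × V → Set X) (l : V × V) : Set X :=
  {x | x ∈ c.NA Q l ∧ ∀ j l', c.E Q x l j l' → ¬ c.φ (c.a.act x (c.ι j)) l' < c.φ x l}

/-- the functional -/
noncomputable def Ψ (K : ℕ) (Q : V × A × V → Set X) : ℝ≥0∞ :=
  K * cst μ Q + (K + 1) * cst μ (c.NR Q) + cst μ (c.NA Q)

/-- transport of a set to a side -/
def pos (s : Bool) (U : Set X) : Set X := cond s (c.a.pb c.t⁻¹ U) U

variable {c} {Q Q' : V × A × V → Set X}

lemma ps_mem_pos {s : Bool} {x : X} {U : Set X} (h : x ∈ U) : c.ps s x ∈ c.pos s U := by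
  cases s <;> simpa [ps, pos] using h

lemma meas_pos {s : Bool} {U : Set X} (h : MeasurableSet U) : MeasurableSet (c.pos s U) := by
  cases s
  exacts [h, c.a.measurableSet_pb _ h]

lemma measure_pos {s : Bool} {U : Set X} (h : MeasurableSet U) : μ (c.pos s U) = μ U := by
  cases s
  exacts [rfl, c.a.measure_pb _ h]

lemma ps_act {s : Bool} {x : X} {j : A} (hj : j ∈ c.J) :
    c.ps s (c.a.act x (c.ι j)) = c.a.act (c.ps s x) (c.ι j) := by
  cases s <;> simp [ps, c.comm j hj]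

lemma GA.mono (h : Q ≤ Q') {x : X} {v w : V} {α : A} (hg : c.GA Q x v α w) : c.GA Q' x v α w :=
  Gen.mono (fun _ _ _ _ hr => hr.imp_right fun h' => h'.imp_right fun h'' => h _ h'') hg

lemma E.mono (h : Q ≤ Q') {x : X} {l l' : V × V} {j : A} (hg : c.E Q x l j l') :
    c.E Q' x l j l' := ⟨hg.1, hg.2.1, fun s => (hg.2.2 s).mono h⟩

lemma Ab.mono (h : Q ≤ Q') {x : X} {l : V × V} (hg : c.Ab Q x l) : c.Ab Q' x l :=
  fun s => (hg s).mono h

lemma NA_anti (h : Q ≤ Q') (l : V × V) : c.NA Q' l ⊆ c.NA Q l :=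
  fun _ hx => ⟨hx.1, fun h' => hx.2 (h'.mono h)⟩

lemma NR_anti (h : Q ≤ Q') (l : V × V) : c.NR Q' l ⊆ c.NR Q l :=
  fun _ hx => ⟨NA_anti h l hx.1, fun j l' h' => hx.2 j l' (h'.mono h)⟩

lemma E.refl {x : X} {l : V × V} (h : x ∈ c.Lk l) : c.E Q x l 1 l :=
  ⟨c.J.one_mem, by simpa using h, fun _ => Gen.refl _ _⟩

lemma E.symm {x : X} {l l' : V × V} {j : A} (hl : x ∈ c.Lk l) (h : c.E Q x l j l') :
    c.E Q (c.a.act x (c.ι j)) l' j⁻¹ l := by
  refine ⟨c.J.inv_mem h.1, by simpa using hl, fun s => ?_⟩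
  rw [ps_act h.1]
  exact Gen.symm (h.2.2 s)

lemma E.trans {x : X} {l l' l'' : V × V} {j j' : A} (h : c.E Q x l j l')
    (h' : c.E Q (c.a.act x (c.ι j)) l' j' l'') : c.E Q x l (j * j') l'' := by
  refine ⟨c.J.mul_mem h.1 h'.1, by simpa using h'.2.1, fun s => Gen.trans (h.2.2 s) ?_⟩
  have := h'.2.2 s
  rwa [ps_act h.1] at this

lemma GA_J {x : X} {j : A} (hj : j ∈ c.J) : c.GA Q x c.o j c.o := Gen.of (Or.inl ⟨rfl, rfl, hj⟩)

lemma E.ab {x : X} {l l' : V × V} {j : A} (h : c.E Q x l j l')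
    (h' : c.Ab Q (c.a.act x (c.ι j)) l') : c.Ab Q x l := by
  intro s
  have h1 := h' s
  rw [ps_act h.1] at h1
  have h2 := Gen.trans (Gen.trans (h.2.2 s) h1) (GA_J (c.J.inv_mem h.1))
  exact h2.cast rfl (by simp)

lemma E_of_ab {x : X} {l l' : V × V} {j : A} (hj : j ∈ c.J) (hl : c.a.act x (c.ι j) ∈ c.Lk l')
    (h : c.Ab Q x l) (h' : c.Ab Q (c.a.act x (c.ι j)) l') : c.E Q x l j l' := by
  refine ⟨hj, hl, fun s => ?_⟩
  have h1 := h' s
  rw [ps_act hj] at h1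
  have h2 := Gen.trans (Gen.trans (h s) (GA_J hj)) ((Gen.symm h1).cast (by simp) rfl)
  exact h2.cast rfl (by simp)

section Meas
variable [Countable V] [Countable A] (hQ : ∀ k, MeasurableSet (Q k))
include hQ

lemma meas_GA (v : V) (α : A) (w : V) : Measurable fun x => c.GA Q x v α w :=
  measurable_Gen (fun _ _ _ => measurable_const.or ((c.mPc _).mem.or (hQ _).mem)) _ _ _

lemma meas_GAps (s : Bool) (v : V) (α : A) (w : V) :
    Measurable fun x => c.GA Q (c.ps s x) v α w := by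
  cases s
  exacts [meas_GA hQ v α w, (meas_GA hQ v α w).comp (c.a.meas _)]

lemma meas_E (l : V × V) (j : A) (l' : V × V) : Measurable fun x => c.E Q x l j l' :=
  measurable_const.and (((c.mLk _).mem.comp (c.a.meas _)).and
    (Measurable.forall fun s => meas_GAps hQ s _ _ _))

lemma meas_Ab (l : V × V) : Measurable fun x => c.Ab Q x l :=
  Measurable.forall fun s => meas_GAps hQ s _ _ _

lemma meas_NA (l : V × V) : MeasurableSet (c.NA Q l) :=
  Measurable.setOf ((c.mLk _).mem.and (meas_Ab hQ l).not)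

lemma meas_NR (l : V × V) : MeasurableSet (c.NR Q l) :=
  Measurable.setOf ((meas_NA hQ l).mem.and (Measurable.forall fun j => Measurable.forall fun l' =>
    (meas_E hQ l j l').imp (Measurable.not
      (measurableSet_lt ((c.mφ l').comp (c.a.meas _)) (c.mφ l)).mem)))

end Meas

lemma cancel {P u : ℝ≥0∞} {n : ℕ} (hP : P ≠ ⊤) (hu : u ≠ ⊤)
    (h : P + (n + 1) * u ≤ P + n * u) : u = 0 := by
  rw [ENNReal.add_le_add_iff_left hP, add_mul, one_mul] at h
  nth_rewrite 2 [← add_zero (n * u)] at h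
  rw [ENNReal.add_le_add_iff_left (ENNReal.mul_ne_top (by simp) hu)] at h
  exact le_antisymm h zero_le

variable [StandardBorelSpace X] [IsProbabilityMeasure μ] [Fintype V] [Countable A] {K : ℕ}
  (hQ : ∀ k, MeasurableSet (Q k)) (hfin : c.Ψ K Q ≠ ⊤)
  (hmin : ∀ Q', (∀ k, MeasurableSet (Q' k)) → Q ≤ Q' → c.Ψ K Q ≤ c.Ψ K Q')
include hQ hfin hmin

lemma claimA (l : V × V) (S : Finset (A × (V × V))) (hS : S.card = 2 * K + 1) :
    μ {x | x ∈ c.NA Q l ∧ ∀ p ∈ S, c.E Q x l p.1 p.2} = 0 := by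
  classical
  by_contra h0
  have hW : MeasurableSet {x | x ∈ c.NA Q l ∧ ∀ p ∈ S, c.E Q x l p.1 p.2} :=
    Measurable.setOf ((meas_NA hQ l).mem.and
      (Measurable.forall fun p => measurable_const.imp (meas_E hQ l p.1 p.2)))
  obtain ⟨U, hUW, hU, hU0, hsep⟩ := sep_finset c.free hW h0
    ((S ×ˢ S).image fun p => c.ι (p.1.1 * p.2.1⁻¹))
  let N : V × A × V → Set X := fun k => {x | ∃ s, (en s l, 1, c.o) = k ∧ x ∈ c.pos s U}
  let Q' : V × A × V → Set X := fun k => Q k ∪ N k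
  have hQ' : ∀ k, MeasurableSet (Q' k) := fun k => (hQ k).union (Measurable.setOf
    (Measurable.exists fun s => measurable_const.and (meas_pos hU).mem))
  have hle : Q ≤ Q' := fun k => subset_union_left
  have h1 : cst μ Q' ≤ cst μ Q + 2 * μ U := by
    refine (cst_union_le fun k => subset_rfl).trans (add_le_add le_rfl ?_)
    refine (cst_push (fun s => (en s l, 1, c.o)) (B := fun s => c.pos s U)
      fun k x hx => hx).trans ?_
    simp [cst, measure_pos hU, two_mul]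
  let Z : V × V → Set X := fun l' => ⋃ p ∈ S.filter (fun p => p.2 = l'), c.a.pb (c.ι p.1)⁻¹ U
  have hZ : ∀ l', MeasurableSet (Z l') := fun l' =>
    Finset.measurableSet_biUnion _ fun p _ => c.a.measurableSet_pb _ hU
  have hZe : ∀ l' y, y ∈ Z l' → ∃ x ∈ U, ∃ j, y = c.a.act x (c.ι j) ∧ c.E Q x l j l' := by
    intro l' y hy
    simp only [Z, mem_iUnion, Finset.mem_filter] at hy
    obtain ⟨p, ⟨hp, rfl⟩, hy⟩ := hy
    exact ⟨_, hy, p.1, by simp, (hUW hy).2 p hp⟩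
  have h2 : cst μ Z = (2 * K + 1) * μ U := by
    have : ∀ l', μ (Z l') = ∑ p ∈ S.filter (fun p => p.2 = l'), μ U := by
      intro l'
      rw [measure_biUnion_finset ?_ fun p _ => c.a.measurableSet_pb _ hU]
      · exact Finset.sum_congr rfl fun p _ => c.a.measure_pb _ hU
      · intro p hp p' hp' hne
        simp only [Finset.coe_filter, mem_ofPred_eq] at hp hp'
        refine disjoint_left.2 fun y hy hy' => ?_
        refine hsep (c.ι (p.1 * p'.1⁻¹)) (Finset.mem_image.2 ⟨(p, p'), by simp [hp.1, hp'.1], rfl⟩)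
          ?_ _ hy (by simpa using hy')
        intro h
        have := congrArg c.rt h
        rw [c.rt_ι, map_one, mul_inv_eq_one] at this
        exact hne (Prod.ext this (hp.2.trans hp'.2.symm))
    unfold cst
    rw [tsum_fintype]
    simp_rw [this]
    rw [Finset.sum_fiberwise S (fun p => p.2) fun _ => μ U, Finset.sum_const, hS]
    simp
  have h3 : cst μ (c.NA Q') + cst μ Z ≤ cst μ (c.NA Q) := by
    refine cst_add_le hZ (fun l' => disjoint_left.2 fun y hy hy' => ?_) (NA_anti hle) ?_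
    · obtain ⟨x, hx, j, rfl, hE⟩ := hZe l' y hy'
      refine hy.2 (((hE.mono hle).symm (hUW hx).1.1).ab fun s => ?_)
      exact Gen.of (Or.inr (Or.inr (Or.inr ⟨s, rfl, ps_mem_pos (by simpa using hx)⟩)))
    · intro l' y hy
      obtain ⟨x, hx, j, rfl, hE⟩ := hZe l' y hy
      exact ⟨hE.2.1, fun h => (hUW hx).1.2 (hE.ab h)⟩
  have h4 : cst μ (c.NR Q') ≤ cst μ (c.NR Q) := cst_mono (NR_anti hle)
  refine hU0 (cancel (n := 2 * K) hfin (measure_ne_top _ _) ?_)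
  calc c.Ψ K Q + ((2 * K : ℕ) + 1) * μ U ≤ c.Ψ K Q' + cst μ Z := by
        rw [h2]; push_cast; gcongr; exact hmin Q' hQ' hle
    _ = K * cst μ Q' + (K + 1) * cst μ (c.NR Q') + (cst μ (c.NA Q') + cst μ Z) := by
        rw [Ψ]; ring
    _ ≤ K * (cst μ Q + 2 * μ U) + (K + 1) * cst μ (c.NR Q) + cst μ (c.NA Q) := by gcongr
    _ = _ := by rw [Ψ]; push_cast; ring

omit [StandardBorelSpace X] in
lemma claimB (s : Bool) (l : V × V) (j : A) (l' : V × V) (j0 : A) (l0 : V × V) :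
    μ {x | j ∈ c.J ∧ x ∈ c.Lk l ∧ c.a.act x (c.ι j) ∈ c.Lk l' ∧
      c.GA Q (c.ps s x) (en s l) j (en s l') ∧ c.E Q x l j0 l0 ∧
      c.a.act x (c.ι j0) ∈ c.NR Q l0 ∧ (c.Ab Q (c.a.act x (c.ι j)) l' ∨ ∃ j1 l1,
        c.E Q (c.a.act x (c.ι j)) l' j1 l1 ∧
          c.φ (c.a.act x (c.ι (j * j1))) l1 < c.φ (c.a.act x (c.ι j0)) l0)} = 0 := by
  set W := {x | j ∈ c.J ∧ x ∈ c.Lk l ∧ c.a.act x (c.ι j) ∈ c.Lk l' ∧
      c.GA Q (c.ps s x) (en s l) j (en s l') ∧ c.E Q x l j0 l0 ∧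
      c.a.act x (c.ι j0) ∈ c.NR Q l0 ∧ (c.Ab Q (c.a.act x (c.ι j)) l' ∨ ∃ j1 l1,
        c.E Q (c.a.act x (c.ι j)) l' j1 l1 ∧
          c.φ (c.a.act x (c.ι (j * j1))) l1 < c.φ (c.a.act x (c.ι j0)) l0)} with hWdef
  have hW : MeasurableSet W := by
    refine Measurable.setOf (measurable_const.and ((c.mLk _).mem.and
      (((c.mLk _).mem.comp (c.a.meas _)).and ((meas_GAps hQ _ _ _ _).and ((meas_E hQ _ _ _).and
      (((meas_NR hQ _).mem.comp (c.a.meas _)).and (((meas_Ab hQ _).comp (c.a.meas _)).or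
      (Measurable.exists fun j1 => Measurable.exists fun l1 =>
        ((meas_E hQ _ _ _).comp (c.a.meas _)).and ?_))))))))
    exact (measurableSet_lt ((c.mφ _).comp (c.a.meas _)) ((c.mφ _).comp (c.a.meas _))).mem
  let N : V × A × V → Set X := fun k => {x | k = (en (!s) l, j, en (!s) l') ∧ x ∈ c.pos (!s) W}
  let Q' : V × A × V → Set X := fun k => Q k ∪ N k
  have hQ' : ∀ k, MeasurableSet (Q' k) := fun k => (hQ k).union (Measurable.setOf
    (measurable_const.and (meas_pos hW).mem))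
  have hle : Q ≤ Q' := fun k => subset_union_left
  have h1 : cst μ Q' ≤ cst μ Q + μ W := by
    refine (cst_union_le fun k => subset_rfl).trans (add_le_add le_rfl ?_)
    rw [← measure_pos (c := c) (s := !s) hW]
    exact cst_single _ fun k x hx => hx
  let Z : V × V → Set X := fun l'' => {y | l'' = l0 ∧ y ∈ c.a.pb (c.ι j0)⁻¹ W}
  have hZ : ∀ l', MeasurableSet (Z l') := fun l' =>
    Measurable.setOf (measurable_const.and (c.a.measurableSet_pb _ hW).mem)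
  have h2 : μ W ≤ cst μ Z := by
    rw [← c.a.measure_pb (c.ι j0)⁻¹ hW]
    refine le_trans (measure_mono ?_) (ENNReal.le_tsum (f := fun k => μ (Z k)) l0)
    exact fun y hy => ⟨rfl, hy⟩
  have h3 : cst μ (c.NR Q') + cst μ Z ≤ cst μ (c.NR Q) := by
    refine cst_add_le hZ (fun l'' => disjoint_left.2 fun y hy hy' => ?_) (NR_anti hle) ?_
    · obtain ⟨rfl, hy'⟩ := hy'
      obtain ⟨x, rfl⟩ : ∃ x, y = c.a.act x (c.ι j0) := ⟨c.a.act y (c.ι j0)⁻¹, by simp⟩
      have hx : x ∈ W := by simpa using hy'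
      obtain ⟨hj, hl, hl', hs, hE0, -, hor⟩ := id hx
      have hE : c.E Q' x l j l' := by
        refine ⟨hj, hl', fun s' => ?_⟩
        by_cases hss : s' = s
        · rw [hss]; exact hs.mono hle
        · have : s' = !s := by cases s <;> cases s' <;> simp_all
          rw [this]
          exact Gen.of (Or.inr (Or.inr (Or.inr ⟨rfl, ps_mem_pos hx⟩)))
      have hE1 := ((hE0.mono hle).symm hl).trans (by simpa using hE)
      rcases hor with h | ⟨j1, l1, h, hlt⟩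
      · exact hy.1.2 (hE1.ab (by simpa using h.mono hle))
      · refine hy.2 _ _ (hE1.trans (by simpa using h.mono hle)) ?_
        simpa [mul_assoc] using hlt
    · rintro l'' y ⟨rfl, hy⟩
      simpa using hy.2.2.2.2.2.1
  have h4 : cst μ (c.NA Q') ≤ cst μ (c.NA Q) := cst_mono (NA_anti hle)
  refine cancel (n := K) hfin (measure_ne_top _ _) ?_
  calc c.Ψ K Q + (K + 1) * μ W ≤ c.Ψ K Q' + (K + 1) * cst μ Z := by
        gcongr; exact hmin Q' hQ' hle
    _ = K * cst μ Q' + (K + 1) * (cst μ (c.NR Q') + cst μ Z) + cst μ (c.NA Q') := by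
        rw [Ψ]; ring
    _ ≤ K * (cst μ Q + μ W) + (K + 1) * cst μ (c.NR Q) + cst μ (c.NA Q) := by gcongr
    _ = _ := by rw [Ψ]; ring

lemma noBad [Countable Γ] : ∀ᵐ x ∂μ, ∀ s l j l', j ∈ c.J → x ∈ c.Lk l →
    c.a.act x (c.ι j) ∈ c.Lk l' → c.GA Q (c.ps s x) (en s l) j (en s l') → c.E Q x l j l' := by
  have hA : ∀ᵐ x ∂μ, ∀ l, x ∈ c.NA Q l →
      ∃ j0 l0, c.E Q x l j0 l0 ∧ c.a.act x (c.ι j0) ∈ c.NR Q l0 := by
    have : ∀ᵐ x ∂μ, ∀ l (S : Finset (A × (V × V))), S.card = 2 * K + 1 →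
        ¬ (x ∈ c.NA Q l ∧ ∀ p ∈ S, c.E Q x l p.1 p.2) := by
      refine ae_all_iff.2 fun l => ae_all_iff.2 fun S => ?_
      by_cases hS : S.card = 2 * K + 1
      · have := measure_eq_zero_iff_ae_notMem.1 (claimA hQ hfin hmin l S hS)
        filter_upwards [this] with x hx _ using hx
      · exact Filter.Eventually.of_forall fun x h => absurd h hS
    filter_upwards [this] with x hx l hl
    have hf : {p : A × (V × V) | c.E Q x l p.1 p.2}.Finite := by
      by_contra hinf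
      obtain ⟨S, hS1, hS2⟩ := Set.Infinite.exists_subset_card_eq hinf (2 * K + 1)
      exact hx l S hS2 ⟨hl, fun p hp => hS1 hp⟩
    obtain ⟨p, hp, hm⟩ := Set.exists_min_image _
      (fun p : A × (V × V) => c.φ (c.a.act x (c.ι p.1)) p.2) hf ⟨(1, l), E.refl hl.1⟩
    refine ⟨p.1, p.2, hp, ⟨hp.2.1, fun h => hl.2 (E.ab hp h)⟩, fun j' l' h => not_lt.2 ?_⟩
    simpa using hm (p.1 * j', l') (E.trans hp h)
  have hB := ae_all_iff.2 fun s => ae_all_iff.2 fun l => ae_all_iff.2 fun j => ae_all_iff.2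
    fun l' => ae_all_iff.2 fun j0 => ae_all_iff.2 fun l0 =>
    measure_eq_zero_iff_ae_notMem.1 (claimB hQ hfin hmin s l j l' j0 l0)
  filter_upwards [hA, hB, c.a.ae_all hA, c.a.ae_all hB, c.free.ae_free]
    with x hA hB hA' hB' hfree s l j l' hj hl hl' hs
  have hs' : c.GA Q (c.ps s (c.a.act x (c.ι j))) (en s l') j⁻¹ (en s l) := by
    rw [ps_act hj]; exact Gen.symm hs
  by_cases h1 : c.Ab Q x l <;> by_cases h2 : c.Ab Q (c.a.act x (c.ι j)) l'
  · exact E_of_ab hj hl' h1 h2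
  · obtain ⟨j0, l0, h3, h4⟩ := hA' (c.ι j) l' ⟨hl', h2⟩
    exact absurd ⟨c.J.inv_mem hj, hl', by simpa using hl, hs', h3, h4, Or.inl (by simpa using h1)⟩
      (hB' (c.ι j) s l' j⁻¹ l j0 l0)
  · obtain ⟨j0, l0, h3, h4⟩ := hA l ⟨hl, h1⟩
    exact absurd ⟨hj, hl, hl', hs, h3, h4, Or.inl h2⟩ (hB s l j l' j0 l0)
  · obtain ⟨j0, l0, h3, h4⟩ := hA l ⟨hl, h1⟩
    obtain ⟨j1, l1, h5, h6⟩ := hA' (c.ι j) l' ⟨hl', h2⟩
    rcases lt_trichotomy (c.φ (c.a.act x (c.ι (j * j1))) l1) (c.φ (c.a.act x (c.ι j0)) l0)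
      with h | h | h
    · exact absurd ⟨hj, hl, hl', hs, h3, h4, Or.inr ⟨j1, l1, h5, h⟩⟩ (hB s l j l' j0 l0)
    · obtain ⟨h7, rfl⟩ := c.iφ _ _ _ _ h
      have h8 := congrArg c.rt (hfree _ _ h7)
      rw [c.rt_ι, c.rt_ι] at h8
      subst h8
      have := h3.trans (by simpa using h5.symm hl')
      simpa using this
    · refine absurd ⟨c.J.inv_mem hj, hl', by simpa using hl, hs', h5, h6,
        Or.inr ⟨j0, l0, by simpa using h3, by simpa using h⟩⟩ (hB' (c.ι j) s l' j⁻¹ l j1 l1)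

omit hQ hfin hmin [StandardBorelSpace X] [IsProbabilityMeasure μ] [Fintype V] [Countable A] in
lemma britton {ω : X} (hω : ∀ g s l j l', j ∈ c.J → c.a.act ω g ∈ c.Lk l →
    c.a.act (c.a.act ω g) (c.ι j) ∈ c.Lk l' →
    c.GA Q (c.ps s (c.a.act ω g)) (en s l) j (en s l') → c.E Q (c.a.act ω g) l j l')
    (v : V) (α : A) (w : V) : c.GA Q ω v α w := by
  let e : Γ × V → Γ × V → Prop := fun p q =>
    ∃ α, q.1 = p.1 * c.ι α ∧ c.GA Q (c.a.act ω p.1) p.2 α q.2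
  let L1 : Γ × V → A ⧸ c.J → Γ × V → Prop := fun p z q =>
    q.1 = p.1 * c.t ∧ z = (c.rt p.1 : A ⧸ c.J) ∧ c.a.act ω p.1 ∈ c.Lk (p.2, q.2)
  let L : Γ × V → (A ⧸ c.J) × Bool → Γ × V → Prop := fun p y q =>
    cond y.2 (L1 p y.1 q) (L1 q y.1 p)
  have he : Equivalence e := by
    refine ⟨fun p => ⟨1, by simp, Gen.refl _ _⟩, ?_, ?_⟩
    · rintro ⟨h, v⟩ ⟨h', v'⟩ ⟨α, rfl, hα⟩
      exact ⟨α⁻¹, by simp, (Gen.symm hα).cast (by simp) rfl⟩
    · rintro ⟨h, v⟩ ⟨h', v'⟩ ⟨h'', v''⟩ ⟨α, rfl, hα⟩ ⟨β, rfl, hβ⟩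
      exact ⟨α * β, by simp [mul_assoc], Gen.trans hα (Gen.cast hβ (by simp) rfl)⟩
  have hc : ∀ p p1 p2 q x b, L p (x, b) p1 → e p1 p2 → L p2 (x, !b) q → e p q := by
    rintro ⟨h, v⟩ ⟨h1, v1⟩ ⟨h2, v2⟩ ⟨h', v'⟩ x b hL ⟨α, hα, hg⟩ hL'
    cases b
    · obtain ⟨rfl, rfl, k1⟩ : h = h1 * c.t ∧ x = (c.rt h1 : A ⧸ c.J) ∧
        c.a.act ω h1 ∈ c.Lk (v1, v) := hL
      obtain rfl : h2 = h1 * c.ι α := hα
      obtain ⟨rfl, k2, k3⟩ : h' = h1 * c.ι α * c.t ∧
        (c.rt h1 : A ⧸ c.J) = (c.rt (h1 * c.ι α) : A ⧸ c.J) ∧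
        c.a.act ω (h1 * c.ι α) ∈ c.Lk (v2, v') := hL'
      have hJ : α ∈ c.J := by simpa [c.rt_ι] using QuotientGroup.eq.1 k2
      have := (hω h1 false (v1, v) α (v2, v') hJ k1 (by simpa using k3) hg).2.2 true
      exact ⟨α, by simp [mul_assoc, c.comm α hJ], Gen.cast this (by simp [ps]) rfl⟩
    · obtain ⟨rfl, rfl, k1⟩ : h1 = h * c.t ∧ x = (c.rt h : A ⧸ c.J) ∧
        c.a.act ω h ∈ c.Lk (v, v1) := hL
      obtain rfl : h2 = h * c.t * c.ι α := hα
      obtain ⟨k0, k2, k3⟩ : h * c.t * c.ι α = h' * c.t ∧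
        (c.rt h : A ⧸ c.J) = (c.rt h' : A ⧸ c.J) ∧
        c.a.act ω h' ∈ c.Lk (v', v2) := hL'
      have k4 := congrArg c.rt k0
      simp only [map_mul, c.rt_t, c.rt_ι, mul_one] at k4
      have hJ : α ∈ c.J := by simpa [← k4] using QuotientGroup.eq.1 k2
      obtain rfl : h' = h * c.ι α := by
        rw [mul_assoc, ← c.comm α hJ, ← mul_assoc] at k0
        exact (mul_right_cancel k0).symm
      have := (hω h true (v, v1) α (v', v2) hJ k1 (by simpa using k3)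
        (Gen.cast hg (by simp [ps]) rfl)).2.2 false
      exact ⟨α, rfl, this⟩
  have key : ∀ x v g w, Gen c.a (fun x v g w => (∃ α, c.ι α = g ∧ x ∈ c.Pc (v, α, w)) ∨
      (g = c.t ∧ x ∈ c.Lk (v, w))) x v g w → ∀ h, x = c.a.act ω h →
      ∃ l, Wd e L (h, v) l (h * g, w) ∧ c.lf (h * g) = c.lf h * FreeGroup.mk l := by
    intro x v g w hg
    refine Gen.induction (P := fun x v g w => ∀ h, x = c.a.act ω h →
      ∃ l, Wd e L (h, v) l (h * g, w) ∧ c.lf (h * g) = c.lf h * FreeGroup.mk l) ?_ ?_ hg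
    · intro x v h _
      exact ⟨[], by rw [mul_one]; exact he.refl (h, v), by simp [← FreeGroup.one_eq_mk]⟩
    · rintro x v k u g w hs - ih h rfl
      obtain ⟨l, h1, h2⟩ := ih (h * k) (by simp)
      rw [mul_assoc] at h1 h2
      rcases hs with (⟨α, rfl, hs⟩ | ⟨rfl, hs⟩) | (⟨α, hα, hs⟩ | ⟨hα, hs⟩)
      · exact ⟨l, Wd.left he ⟨α, rfl, Gen.of (Or.inr (Or.inl hs))⟩ h1, by rw [h2, c.lf_ι]⟩
      · refine ⟨((c.rt h : A ⧸ c.J), true) :: l, ⟨_, _, he.refl _, ⟨rfl, rfl, hs⟩, h1⟩, ?_⟩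
        rw [h2, c.lf_t, mul_assoc]; rfl
      · refine ⟨l, Wd.left he (he.symm ⟨α, by simp [hα], Gen.of (Or.inr (Or.inl ?_))⟩) h1, ?_⟩
        · simpa using hs
        · rw [h2, ← c.lf_ι (h * k) α, hα]; simp
      · refine ⟨((c.rt (h * k) : A ⧸ c.J), false) :: l,
          ⟨_, _, he.refl _, ⟨by simp [← hα], rfl, by simpa using hs⟩, h1⟩, ?_⟩
        have h3 := c.lf_t (h * k)
        rw [← hα, mul_inv_cancel_right] at h3
        rw [h2, h3, mul_assoc]
        congr 1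
        exact (Quot.sound (FreeGroup.Red.Step.cons_not (x := (c.rt (h * k) : A ⧸ c.J))
          (b := true) (L := l))).symm
  obtain ⟨l, h1, h2⟩ := key ω v (c.ι α) w (c.full _ _ _ _) 1 (by simp)
  rw [c.lf_ι] at h2
  obtain ⟨β, h3, h4⟩ := Wd.eq_of_mk_eq_one he hc (by simpa using h2.symm) h1
  have h5 := congrArg c.rt h3
  simp only [c.rt_ι, one_mul] at h5
  rw [h5]
  exact Gen.cast h4 (by simp) rfl

omit hQ hfin hmin in
theorem main [Countable Γ] (c : SI A Γ X V μ) : ∃ Q : V × A × V → Set X,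
    (∀ k, MeasurableSet (Q k)) ∧ cst μ Q ≤ cst μ c.Lk + 1 ∧ ∀ᵐ x ∂μ, ∀ v α w, c.GA Q x v α w := by
  set K := 2 * Fintype.card (V × V) + 1 with hK
  have hL : cst μ c.Lk ≤ Fintype.card (V × V) := cst_le_card _
  obtain ⟨⟨Q, hQ⟩, h1, h2⟩ := exhaust (P := {Q : V × A × V → Set X // ∀ k, MeasurableSet (Q k)})
    (fun Q => c.Ψ K Q.1) ⟨fun _ => ∅, fun _ => MeasurableSet.empty⟩ (by
      intro p hp hΨ
      have hΨ' : Antitone fun n => c.Ψ K (p n).1 := antitone_nat_of_succ_le hΨ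
      refine ⟨⟨fun k => ⋃ n, (p n).1 k, fun k => MeasurableSet.iUnion fun n => (p n).2 k⟩,
        fun n k => subset_iUnion (fun n => (p n).1 k) n, fun n => ?_⟩
      have hle : ∀ m, (p m).1 ≤ fun k => ⋃ n, (p n).1 k := fun m k =>
        subset_iUnion (fun n => (p n).1 k) m
      show c.Ψ K _ ≤ c.Ψ K _
      rw [Ψ, cst_iUnion (D := fun n => (p n).1) (fun m n h => hp h), ENNReal.mul_iSup,
        ENNReal.iSup_add, ENNReal.iSup_add]
      refine iSup_le fun m => le_trans ?_ (hΨ' (le_max_right m n))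
      show _ ≤ c.Ψ K _
      rw [Ψ]
      gcongr
      · exact cst_mono (hp (le_max_left m n))
      · exact cst_mono (NR_anti (hle _))
      · exact cst_mono (NA_anti (hle _)))
  have h3 : c.Ψ K Q ≤ K * (cst μ c.Lk + 1) := by
    refine h1.trans ?_
    show c.Ψ K _ ≤ _
    have h4 : cst μ (c.NR fun _ => ∅) ≤ cst μ c.Lk := cst_mono fun l x hx => hx.1.1
    have h5 : cst μ (c.NA fun _ => ∅) ≤ cst μ c.Lk := cst_mono fun l x hx => hx.1
    calc c.Ψ K _ ≤ K * 0 + (K + 1) * cst μ c.Lk + cst μ c.Lk := by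
          rw [Ψ]; gcongr; simp [cst]
      _ = K * cst μ c.Lk + 2 * cst μ c.Lk := by ring
      _ ≤ K * cst μ c.Lk + K := by
          gcongr
          rw [hK]; push_cast
          exact le_trans (by gcongr) le_self_add
      _ = _ := by ring
  have hfin : c.Ψ K Q ≠ ⊤ := ne_top_of_le_ne_top
    (ENNReal.mul_ne_top (by simp) (by simpa using ne_top_of_le_ne_top (ENNReal.natCast_ne_top _) hL)) h3
  refine ⟨Q, hQ, ?_, ?_⟩
  · refine (ENNReal.mul_le_mul_iff_right (a := (K : ℝ≥0∞)) (by simp [hK]) (by simp)).1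
      (le_trans ?_ h3)
    rw [Ψ, add_assoc]; exact le_self_add
  · filter_upwards [c.a.ae_all (noBad hQ hfin fun Q' hQ' h => h2 ⟨Q', hQ'⟩ h)] with x hx
    exact britton hx

end SI

end Vale.Agent.P189
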