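import Vale.Agent.P189.Comb
import Vale.Agent.P189.StepI

/-! Step II: the folding sweep-out. -/

namespace Vale.Agent.P189

open MeasureTheory Set
open scoped ENNReal Classical

section Int
variable {X : Type} [MeasurableSpace X] (μ : Measure X)

/-- integral of a natural number valued function -/
noncomputable def In (h : X → ℕ) : ℝ≥0∞ := ∫⁻ x, (h x : ℝ≥0∞) ∂μ

variable {μ}

lemma meas_coe {h : X → ℕ} (hh : Measurable h) : Measurable fun x => (h x : ℝ≥0∞) :=
  (Measurable.of_discrete (f := fun n : ℕ => (n : ℝ≥0∞))).comp hh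

lemma In_mono {h h' : X → ℕ} (hh : ∀ x, h x ≤ h' x) : In μ h ≤ In μ h' :=
  lintegral_mono fun x => Nat.cast_le.2 (hh x)

lemma In_add {h h' : X → ℕ} (hh : Measurable h) :
    In μ (fun x => h x + h' x) = In μ h + In μ h' := by
  unfold In; push_cast
  exact lintegral_add_left (meas_coe hh) _

lemma In_sum {T : Type} [Fintype T] {h : T → X → ℕ} (hh : ∀ i, Measurable (h i)) :
    In μ (fun x => ∑ i, h i x) = ∑ i, In μ (h i) := by
  unfold In; push_cast
  exact lintegral_finsetSum _ fun i _ => meas_coe (hh i)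

lemma In_const [IsProbabilityMeasure μ] (n : ℕ) : In μ (fun _ => n) = n := by simp [In]

lemma In_ite {P : X → Prop} [DecidablePred P] (hP : Measurable P) :
    In μ (fun x => if P x then 1 else 0) = μ {x | P x} := by
  rw [← lintegral_indicator_one hP.setOf]
  refine lintegral_congr fun x => ?_
  by_cases h : P x <;> simp [h]

lemma meas_ite {P : X → Prop} [DecidablePred P] (hP : Measurable P) :
    Measurable (fun x => if P x then 1 else 0 : X → ℕ) :=
  Measurable.ite hP.setOf measurable_const measurable_const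

lemma In_act {G : Type} [Group G] (a : PMPAction G X μ) (g : G) {h : X → ℕ} (hh : Measurable h) :
    In μ (fun x => h (a.act x g)) = In μ h := a.lintegral_act g (meas_coe hh)

variable {V : Type} [Fintype V]

omit [Fintype V] in
lemma meas_st {σ : X → V → V → Prop} (h : ∀ v w, Measurable fun x => σ x v w) : Measurable σ :=
  measurable_pi_iff.2 fun v => measurable_pi_iff.2 fun w => h v w

lemma meas_nV {σ : X → V → V → Prop} (h : Measurable σ) : Measurable fun x => nV (σ x) :=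
  (Measurable.of_discrete (f := nV)).comp h

lemma meas_nE {σ σ' : X → V → V → Prop} {P : X → V × V → Prop} (h : Measurable σ)
    (h' : Measurable σ') (hP : ∀ p, Measurable fun x => P x p) :
    Measurable fun x => nE (σ x) (σ' x) (P x) :=
  (Measurable.of_discrete (f := fun z : (V → V → Prop) × (V → V → Prop) × (V × V → Prop) =>
    nE z.1 z.2.1 z.2.2)).comp (h.prodMk (h'.prodMk (measurable_pi_iff.2 hP)))

end Int

/-- data for step II -/
structure SII (T X V : Type) [MeasurableSpace X] (μ : Measure X) where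
  a : PMPAction (FreeGroup T) X μ
  D : V × T × V → Set X
  mD : ∀ k, MeasurableSet (D k)
  full : Full a (LR FreeGroup.of D)
  o : V
  p1 : T → V
  p2 : T → V
  f : T ≃ T
  g : T ≃ T
  hfg : ∀ i, f (f i) ≠ g i
  e1 : ∀ i x, x ∈ D (o, i, p1 i)
  e2 : ∀ i x, x ∈ D (p1 i, f i, p2 i)
  e3 : ∀ i x, x ∈ D (p2 i, g i, o)
  ne : ∀ i, p1 i ≠ o
  U : Bool → Set X
  mU : ∀ u, MeasurableSet (U u)
  cover : ∀ x, ∃ u, x ∈ U u
  half : ∀ u, 2 * μ (U u) ≤ 1

namespace SII
open SI (en)
variable {T X V : Type} [MeasurableSpace X] {μ : Measure X} (c : SII T X V μ)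

/-- moving along a generator -/
def mv (i : T) (x : X) : X := c.a.act x (FreeGroup.of i)

/-- position of the ends of an edge -/
def ps (i : T) (s : Bool) (x : X) : X := cond s (c.mv i x) x

/-- inverse of `ps` -/
def qs (i : T) (s : Bool) (x : X) : X := cond s (c.a.act x (FreeGroup.of i)⁻¹) x

/-- a fold is allowed -/
def Cd (σ : X → V → V → Prop) (r : T × (V × V) × (V × V) × Bool × Bool) (x : X) : Prop :=
  x ∈ c.D (r.2.1.1, r.1, r.2.1.2) ∧ x ∈ c.D (r.2.2.1.1, r.1, r.2.2.1.2) ∧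
    σ (c.ps r.1 (!r.2.2.2.1) x) (en (!r.2.2.2.1) r.2.1) (en (!r.2.2.2.1) r.2.2.1) ∧
    c.ps r.1 r.2.2.2.1 x ∈ c.U r.2.2.2.2

/-- one round of folding -/
def step (σ : X → V → V → Prop) (r : T × (V × V) × (V × V) × Bool × Bool) (y : X) :
    V → V → Prop :=
  merge (c.Cd σ r (c.qs r.1 r.2.2.2.1 y)) (σ y) (en r.2.2.2.1 r.2.1) (en r.2.2.2.1 r.2.2.1)

/-- the sequence of states -/
def seq (r : ℕ → T × (V × V) × (V × V) × Bool × Bool) : ℕ → X → V → V → Prop
  | 0 => fun _ v w => v = w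
  | n + 1 => c.step (seq r n) (r n)

/-- merged with the marked point -/
def mrk (σ : X → V → V → Prop) (i : T) : Set X := {y | σ y (c.p1 i) c.o}

variable {c}

@[simp] lemma ps_qs (i : T) (s : Bool) (x : X) : c.ps i s (c.qs i s x) = x := by
  cases s <;> simp [ps, qs, mv]

@[simp] lemma qs_ps (i : T) (s : Bool) (x : X) : c.qs i s (c.ps i s x) = x := by
  cases s <;> simp [ps, qs, mv]

lemma mp_ps (i : T) (s : Bool) : MeasurePreserving (c.ps i s) μ μ := by
  cases s
  exacts [MeasurePreserving.id μ, c.a.mp _]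

lemma mp_qs (i : T) (s : Bool) : MeasurePreserving (c.qs i s) μ μ := by
  cases s
  exacts [MeasurePreserving.id μ, c.a.mp _]

variable {σ : X → V → V → Prop} {r : T × (V × V) × (V × V) × Bool × Bool}

lemma meas_Cd (hm : ∀ v w, Measurable fun x => σ x v w) : Measurable (c.Cd σ r) :=
  (c.mD _).mem.and ((c.mD _).mem.and (((hm _ _).comp (mp_ps _ _).measurable).and
    ((c.mU _).mem.comp (mp_ps _ _).measurable)))

lemma meas_step (hm : ∀ v w, Measurable fun x => σ x v w) (v w : V) :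
    Measurable fun x => c.step σ r x v w :=
  (hm _ _).or (((meas_Cd hm).comp (mp_qs _ _).measurable).and
    (((hm _ _).and (hm _ _)).or ((hm _ _).and (hm _ _))))

lemma seq_equiv (r : ℕ → T × (V × V) × (V × V) × Bool × Bool) (n : ℕ) (x : X) :
    Equivalence (c.seq r n x) := by
  induction n with
  | zero => exact eq_equivalence
  | succ n ih => exact merge_equiv ih _ _

lemma seq_meas (r : ℕ → T × (V × V) × (V × V) × Bool × Bool) (n : ℕ) (v w : V) :
    Measurable fun x => c.seq r n x v w := by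
  induction n generalizing v w with
  | zero => exact measurable_const
  | succ n ih => exact meas_step ih v w

lemma seq_mono (r : ℕ → T × (V × V) × (V × V) × Bool × Bool) {m n : ℕ} (h : m ≤ n) {x : X}
    {v w : V} (hv : c.seq r m x v w) : c.seq r n x v w := by
  induction h with
  | refl => exact hv
  | step _ ih => exact Or.inl ih

lemma seq_limit {r : ℕ → T × (V × V) × (V × V) × Bool × Bool} (hr : ∀ ρ n, ∃ m, n ≤ m ∧ r m = ρ)
    (x : X) (v w : V) : ∃ n, c.seq r n x v w := by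
  let e : X × V → X × V → Prop := fun p q => p.1 = q.1 ∧ ∃ n, c.seq r n p.1 p.2 q.2
  let L1 : X × V → T → X × V → Prop := fun p i q => q.1 = c.mv i p.1 ∧ p.1 ∈ c.D (p.2, i, q.2)
  let L : X × V → T × Bool → X × V → Prop := fun p y q => cond y.2 (L1 p y.1 q) (L1 q y.1 p)
  have he : Equivalence e := by
    refine ⟨fun p => ⟨rfl, 0, rfl⟩, ?_, ?_⟩
    · rintro ⟨x, v⟩ ⟨y, w⟩ ⟨rfl, n, h⟩
      exact ⟨rfl, n, (seq_equiv r n _).symm h⟩
    · rintro ⟨x, v⟩ ⟨y, w⟩ ⟨z, u⟩ ⟨rfl, n, h⟩ ⟨rfl, m, h'⟩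
      exact ⟨rfl, max n m, (seq_equiv r _ _).trans (seq_mono r (le_max_left _ _) h)
        (seq_mono r (le_max_right _ _) h')⟩
  have fold : ∀ i s x (p p' : V × V) n, x ∈ c.D (p.1, i, p.2) → x ∈ c.D (p'.1, i, p'.2) →
      c.seq r n (c.ps i (!s) x) (en (!s) p) (en (!s) p') →
      ∃ m, c.seq r m (c.ps i s x) (en s p) (en s p') := by
    intro i s x p p' n h1 h2 h3
    obtain ⟨u, hu⟩ := c.cover (c.ps i s x)
    obtain ⟨m, hm, hρ⟩ := hr (i, p, p', s, u) n
    refine ⟨m + 1, ?_⟩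
    show c.step _ _ _ _ _
    rw [hρ]
    refine Or.inr ⟨?_, Or.inl ⟨(seq_equiv r _ _).refl _, (seq_equiv r _ _).refl _⟩⟩
    rw [qs_ps]
    exact ⟨h1, h2, seq_mono r hm h3, hu⟩
  have hc : ∀ p p1 p2 q x b, L p (x, b) p1 → e p1 p2 → L p2 (x, !b) q → e p q := by
    rintro ⟨x, v⟩ ⟨x1, v1⟩ ⟨x2, v2⟩ ⟨x', v'⟩ i b hL ⟨rfl, n, hn⟩ hL'
    cases b
    · obtain ⟨rfl, k1⟩ : x = c.mv i x1 ∧ x1 ∈ c.D (v1, i, v) := hL
      obtain ⟨rfl, k2⟩ : x' = c.mv i x1 ∧ x1 ∈ c.D (v2, i, v') := hL'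
      exact ⟨rfl, fold i true x1 (v1, v) (v2, v') n k1 k2 hn⟩
    · obtain ⟨rfl, k1⟩ : x1 = c.mv i x ∧ x ∈ c.D (v, i, v1) := hL
      obtain ⟨k0, k2⟩ : c.mv i x = c.mv i x' ∧ x' ∈ c.D (v', i, v2) := hL'
      obtain rfl : x = x' := by simpa [mv] using congrArg (c.a.act · (FreeGroup.of i)⁻¹) k0
      exact ⟨rfl, fold i false x (v, v1) (v', v2) n k1 k2 hn⟩
  have key : ∀ x v g w, Gen c.a (LR FreeGroup.of c.D) x v g w →
      ∃ l, Wd e L (x, v) l (c.a.act x g, w) ∧ FreeGroup.mk l = g := by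
    intro x v g w hg
    refine Gen.induction (P := fun x v g w =>
      ∃ l, Wd e L (x, v) l (c.a.act x g, w) ∧ FreeGroup.mk l = g) ?_ ?_ hg
    · intro x v
      exact ⟨[], by rw [c.a.act_one]; exact he.refl (x, v), rfl⟩
    · rintro x v k u g w hs - ⟨l, h1, rfl⟩
      rw [c.a.act_act] at h1
      rcases hs with ⟨i, rfl, hs⟩ | ⟨i, hi, hs⟩
      · exact ⟨(i, true) :: l, ⟨_, _, he.refl _, ⟨rfl, hs⟩, h1⟩, rfl⟩
      · refine ⟨(i, false) :: l, ⟨_, _, he.refl _, ⟨by simp [mv, hi], hs⟩, h1⟩, ?_⟩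
        rw [← inv_inv k, ← hi]; rfl
  obtain ⟨l, h1, h2⟩ := key x v 1 w (c.full _ _ _ _)
  exact (Wd.eq_of_mk_eq_one he hc h2 h1).2

variable [Fintype T] [Fintype V] [IsProbabilityMeasure μ]

/-- number of edge classes -/
noncomputable def M (c : SII T X V μ) (σ : X → V → V → Prop) (x : X) : ℕ :=
  ∑ i, nE (σ x) (σ (c.mv i x)) fun p => x ∈ c.D (p.1, i, p.2)

omit [IsProbabilityMeasure μ] in
lemma meas_M (hm : ∀ v w, Measurable fun x => σ x v w) : Measurable (c.M σ) :=
  Finset.measurable_sum _ fun _ _ => meas_nE (meas_st hm) ((meas_st hm).comp (c.a.meas _))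
    fun _ => (c.mD _).mem

omit [IsProbabilityMeasure μ] in
lemma step_ineq (he : ∀ x, Equivalence (σ x)) (hm : ∀ v w, Measurable fun x => σ x v w) :
    In μ (c.M (c.step σ r)) + In μ (fun x => nV (σ x)) ≤
      In μ (c.M σ) + In μ (fun x => nV (c.step σ r x)) := by
  obtain ⟨i, p, p', s, u⟩ := r
  set r := (i, p, p', s, u) with hr
  let F : X → Prop := fun x => c.Cd σ r x ∧ ¬ σ (c.ps i s x) (en s p) (en s p')
  have hF : Measurable F := (meas_Cd hm).and ((hm _ _).comp (mp_ps _ _).measurable).not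
  have he' : ∀ x, Equivalence (c.step σ r x) := fun x => merge_equiv (he x) _ _
  have h1 : ∀ x, c.M (c.step σ r) x + (if F x then 1 else 0) ≤ c.M σ x := by
    intro x
    have hle : ∀ j ∈ Finset.univ, nE (c.step σ r x) (c.step σ r (c.mv j x))
        (fun p => x ∈ c.D (p.1, j, p.2)) ≤ nE (σ x) (σ (c.mv j x))
        (fun p => x ∈ c.D (p.1, j, p.2)) := fun j _ =>
      nE_mono (he _) (he _) (he' _) (he' _) (fun _ _ => Or.inl) (fun _ _ => Or.inl) _
    split_ifs with h
    · refine Finset.sum_lt_sum hle ⟨i, Finset.mem_univ _, ?_⟩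
      have h2 : c.step σ r (c.ps i s x) (en s p) (en s p') :=
        Or.inr ⟨by simpa [hr] using h.1, Or.inl ⟨(he _).refl _, (he _).refl _⟩⟩
      have h3 : c.step σ r (c.ps i (!s) x) (en (!s) p) (en (!s) p') := Or.inl h.1.2.2.1
      have h4 := h.2
      refine nE_lt (he _) (he _) (he' _) (he' _) (fun _ _ => Or.inl) (fun _ _ => Or.inl) _
        (p := p) (q := p') h.1.1 h.1.2.1 ?_ ?_
      · cases s
        exacts [fun h => h4 h.1, fun h => h4 h.2]
      · cases s
        exacts [⟨h2, h3⟩, ⟨h3, h2⟩]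
    · exact Finset.sum_le_sum hle
  have h2 : ∀ y, nV (σ y) ≤ nV (c.step σ r y) + (if F (c.qs i s y) then 1 else 0) := by
    intro y
    have := nV_merge (c := c.Cd σ r (c.qs i s y)) (he y) (en s p) (en s p')
    simp only [F, ps_qs]
    exact this
  have h3 := In_mono (μ := μ) h1
  have h4 := In_mono (μ := μ) h2
  rw [In_add (meas_M (meas_step hm)), In_ite hF] at h3
  rw [In_add (meas_nV (meas_st (meas_step hm))),
    In_ite (P := fun y => F (c.qs i s y)) (hF.comp (mp_qs i s).measurable)] at h4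
  have h5 : μ {y | F (c.qs i s y)} = μ {x | F x} :=
    (mp_qs i s).measure_preimage hF.setOf.nullMeasurableSet
  calc _ ≤ In μ (c.M (c.step σ r)) + (In μ (fun x => nV (c.step σ r x)) + μ {x | F x}) := by
        rw [← h5]; gcongr
    _ = (In μ (c.M (c.step σ r)) + μ {x | F x}) + In μ (fun x => nV (c.step σ r x)) := by ring
    _ ≤ _ := by gcongr

lemma In_nV_ne_top (σ : X → V → V → Prop) : In μ (fun x => nV (σ x)) ≠ ⊤ :=
  ne_top_of_le_ne_top (by rw [In_const]; simp) (In_mono fun x => nV_le (σ x))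

lemma seq_ineq (r : ℕ → T × (V × V) × (V × V) × Bool × Bool) (n : ℕ) :
    In μ (c.M (c.seq r n)) + Fintype.card V ≤ cst μ c.D + In μ (fun x => nV (c.seq r n x)) := by
  induction n with
  | zero =>
    have : In μ (fun x => nV (c.seq r 0 x)) = Fintype.card V := by
      rw [← In_const (μ := μ)]; congr 1; ext x; exact nV_eq
    rw [this]
    gcongr
    refine (In_mono fun x => Finset.sum_le_sum fun i _ => nE_le _ _ _).trans ?_
    rw [In_sum fun i => Finset.measurable_sum _ fun p _ => meas_ite (c.mD _).mem]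
    simp_rw [fun i => In_sum (μ := μ) fun p : V × V => meas_ite (c.mD (p.1, i, p.2)).mem,
      fun i (p : V × V) => In_ite (μ := μ) (c.mD (p.1, i, p.2)).mem]
    rw [← Fintype.sum_prod_type', ← tsum_fintype (L := SummationFilter.unconditional _)]
    refine ENNReal.tsum_comp_le_tsum_of_injective
      (f := fun z : T × V × V => (z.2.1, z.1, z.2.2)) ?_ (fun k => μ (c.D k))
    rintro ⟨i, v, w⟩ ⟨i', v', w'⟩ h
    simp only [Prod.mk.injEq] at h ⊢
    tauto
  | succ n ih =>
    have h := step_ineq (c := c) (r := r n) (seq_equiv (c := c) r n) (seq_meas r n)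
    rw [← ENNReal.add_le_add_iff_right (In_nV_ne_top (μ := μ) (c.seq r n))]
    calc _ = (In μ (c.M (c.step (c.seq r n) (r n))) + In μ (fun x => nV (c.seq r n x)))
          + Fintype.card V := by rw [add_right_comm]; rfl
      _ ≤ (In μ (c.M (c.seq r n)) + Fintype.card V) +
          In μ (fun x => nV (c.step (c.seq r n) (r n) x)) := by
            rw [add_right_comm _ (Fintype.card V : ℝ≥0∞)]; gcongr
      _ ≤ (cst μ c.D + In μ (fun x => nV (c.seq r n x))) +
          In μ (fun x => nV (c.step (c.seq r n) (r n) x)) := by gcongr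
      _ = _ := by rw [add_right_comm]; rfl

/-- excess at the marked class -/
def XX (c : SII T X V μ) (σ : X → V → V → Prop) (k : T) (x : X) : Prop :=
  (σ x (c.p1 (c.f.symm k)) c.o ∧ ¬ σ (c.mv k x) (c.p1 k) (c.p2 (c.f.symm k))) ∨
    (σ x (c.p2 (c.g.symm k)) c.o ∧ ¬ σ (c.mv k x) (c.p1 k) c.o)

/-- excess at an unmarked class -/
def YY (c : SII T X V μ) (σ : X → V → V → Prop) (k : T) (x : X) : Prop :=
  σ x (c.p1 k) (c.p2 (c.f.symm k)) ∧ ¬ σ x (c.p1 k) c.o

lemma arith {o fw bw M nv nc xx yy d cc : ℝ≥0∞} {v m : ℕ} (hnv : nv ≠ ⊤) (hcc : cc ≠ ⊤)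
    (hnc : nc ≠ ⊤) (h1 : o + fw + bw ≤ M) (h2 : nv ≤ 1 + nc + fw + bw)
    (h3 : 2 * m + xx + 2 * nc + yy ≤ o + o) (h4 : M + v ≤ d + nv) (h5 : d + 1 ≤ v + m + cc) :
    xx + yy ≤ 2 * cc := by
  have hd : d ≠ ⊤ := ne_top_of_le_ne_top (by simp [hcc]) (le_self_add.trans h5)
  have hM : M ≠ ⊤ := ne_top_of_le_ne_top (by simp [hd, hnv]) (le_self_add.trans h4)
  have h6 : o + fw + bw ≠ ⊤ := ne_top_of_le_ne_top hM h1
  simp only [ne_eq, ENNReal.add_eq_top, not_or] at h6
  obtain ⟨⟨ho, hfw⟩, hbw⟩ := h6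
  have h7 : 2 * m + xx + 2 * nc + yy ≠ ⊤ := ne_top_of_le_ne_top (by simp [ho]) h3
  simp only [ne_eq, ENNReal.add_eq_top, not_or] at h7
  obtain ⟨⟨⟨-, hxx⟩, -⟩, hyy⟩ := h7
  lift o to NNReal using ho
  lift fw to NNReal using hfw
  lift bw to NNReal using hbw
  lift M to NNReal using hM
  lift nv to NNReal using hnv
  lift nc to NNReal using hnc
  lift xx to NNReal using hxx
  lift yy to NNReal using hyy
  lift d to NNReal using hd
  lift cc to NNReal using hcc
  have h1' : (o : ℝ) + fw + bw ≤ M := by exact_mod_cast h1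
  have h2' : (nv : ℝ) ≤ 1 + nc + fw + bw := by exact_mod_cast h2
  have h3' : 2 * (m : ℝ) + xx + 2 * nc + yy ≤ o + o := by exact_mod_cast h3
  have h4' : (M : ℝ) + v ≤ d + nv := by exact_mod_cast h4
  have h5' : (d : ℝ) + 1 ≤ v + m + cc := by exact_mod_cast h5
  have : (xx : ℝ) + yy ≤ 2 * cc := by linarith
  exact_mod_cast this

lemma curvature (he : ∀ x, Equivalence (σ x)) (hm : ∀ v w, Measurable fun x => σ x v w)
    {cc : ℝ≥0∞} (hcc : cc ≠ ⊤)
    (H : In μ (c.M σ) + Fintype.card V ≤ cst μ c.D + In μ (fun x => nV (σ x)))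
    (hc : cst μ c.D + 1 ≤ Fintype.card V + Fintype.card T + cc) :
    ∑ k, μ {x | c.XX σ k x} + ∑ k, μ {x | c.YY σ k x} ≤ 2 * cc := by
  let Q : X → V → ℕ → Prop := fun x v n => ∃ v', σ x v v' ∧
    ((v' = c.o ∨ ∃ i, v' = c.p1 i ∨ v' = c.p2 i) ∨ ∃ g, GenN c.a (LR FreeGroup.of c.D) n x v' g c.o)
  have hQ : ∀ v x, ∃ n, Q x v n := fun v x => by
    obtain ⟨n, hn⟩ := c.full x v 1 c.o
    exact ⟨n, v, (he x).refl v, Or.inr ⟨1, hn⟩⟩
  let ρ : X → V → ℕ := fun x v => Nat.find (hQ v x)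
  have hρm : ∀ v, Measurable fun x => ρ x v := fun v => measurable_find (hQ v) fun n =>
    Measurable.setOf (Measurable.exists fun v' => (hm _ _).and (measurable_const.or
      (Measurable.exists fun g => measurable_GenN (fun _ _ _ => Measurable.exists fun _ =>
        measurable_const.and (c.mD _).mem) _ _ _ _)))
  have hρle : ∀ x v n, Q x v n → ρ x v ≤ n := fun x v n h => Nat.find_min' _ h
  have hρ : ∀ x v w, cl (σ x) v = cl (σ x) w → ρ x v = ρ x w := by
    have : ∀ x v w, σ x v w → ρ x v ≤ ρ x w := by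
      intro x v w h
      obtain ⟨v', h1, h2⟩ := Nat.find_spec (hQ w x)
      exact hρle _ _ _ ⟨v', (he x).trans h h1, h2⟩
    intro x v w h
    rw [cl_eq (he x)] at h
    exact le_antisymm (this _ _ _ h) (this _ _ _ ((he x).symm h))
  have hρo : ∀ x, ρ x c.o = 0 := fun x =>
    Nat.le_zero.1 (hρle _ _ _ ⟨_, (he x).refl _, Or.inl (Or.inl rfl)⟩)
  have hρ1 : ∀ x i, ρ x (c.p1 i) = 0 := fun x i =>
    Nat.le_zero.1 (hρle _ _ _ ⟨_, (he x).refl _, Or.inl (Or.inr ⟨i, Or.inl rfl⟩)⟩)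
  have hρ2 : ∀ x i, ρ x (c.p2 i) = 0 := fun x i =>
    Nat.le_zero.1 (hρle _ _ _ ⟨_, (he x).refl _, Or.inl (Or.inr ⟨i, Or.inr rfl⟩)⟩)
  let nC : (V → V → Prop) → ℕ := fun r => (((Finset.univ.image fun i => cl r (c.p1 i)) ∪
    Finset.univ.image fun i => cl r (c.p2 i)).erase (cl r c.o)).card
  let Out : T → X → ℕ := fun k x => nE (σ x) (σ (c.mv k x)) fun p => p = (c.o, c.p1 k) ∨
    p = (c.p1 (c.f.symm k), c.p2 (c.f.symm k)) ∨ p = (c.p2 (c.g.symm k), c.o)
  let Fw : T → X → ℕ := fun k x => nE (σ x) (σ (c.mv k x)) fun p =>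
    x ∈ c.D (p.1, k, p.2) ∧ ρ (c.mv k x) p.2 < ρ x p.1
  let Bw : T → X → ℕ := fun k x => nE (σ x) (σ (c.mv k x)) fun p =>
    x ∈ c.D (p.1, k, p.2) ∧ ρ x p.1 < ρ (c.mv k x) p.2
  have hσ := meas_st hm
  have mC : Measurable fun x => nC (σ x) := (Measurable.of_discrete (f := nC)).comp hσ
  have mO : ∀ k, Measurable (Out k) := fun k =>
    meas_nE hσ (hσ.comp (c.a.meas _)) fun _ => measurable_const
  have mF : ∀ k, Measurable (Fw k) := fun k =>
    meas_nE hσ (hσ.comp (c.a.meas _)) fun _ => (c.mD _).mem.and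
      (measurableSet_lt ((hρm _).comp (c.a.meas _)) (hρm _)).mem
  have mB : ∀ k, Measurable (Bw k) := fun k =>
    meas_nE hσ (hσ.comp (c.a.meas _)) fun _ => (c.mD _).mem.and
      (measurableSet_lt (hρm _) ((hρm _).comp (c.a.meas _))).mem
  have mX : ∀ k, Measurable (c.XX σ k) := fun k =>
    ((hm _ _).and ((hm _ _).comp (c.a.meas _)).not).or
      ((hm _ _).and ((hm _ _).comp (c.a.meas _)).not)
  have mY : ∀ k, Measurable (c.YY σ k) := fun k => (hm _ _).and (hm _ _).not
  have ha : ∀ x, ∑ k, Out k x + ∑ k, Fw k x + ∑ k, Bw k x ≤ c.M σ x := by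
    intro x
    rw [← Finset.sum_add_distrib, ← Finset.sum_add_distrib]
    refine Finset.sum_le_sum fun k _ => nE_split (ρ x) (ρ (c.mv k x)) (hρ _) (hρ _) _ _ ?_
    rintro p (rfl | rfl | rfl)
    · exact ⟨c.e1 _ _, hρo _, hρ1 _ _⟩
    · exact ⟨by simpa using c.e2 (c.f.symm k) x, hρ1 _ _, hρ2 _ _⟩
    · exact ⟨by simpa using c.e3 (c.g.symm k) x, hρ2 _ _, hρo _⟩
  have hb : ∀ x, nV (σ x) ≤ 1 + nC (σ x) + ∑ k, Fw k x +
      ∑ k, Bw k (c.a.act x (FreeGroup.of k)⁻¹) := by
    intro x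
    let SF : T → Finset (Set V × Set V) := fun k => (Finset.univ.filter fun p : V × V =>
      x ∈ c.D (p.1, k, p.2) ∧ ρ (c.mv k x) p.2 < ρ x p.1).image fun p =>
        (cl (σ x) p.1, cl (σ (c.mv k x)) p.2)
    let SB : T → X → Finset (Set V × Set V) := fun k x => (Finset.univ.filter fun p : V × V =>
      x ∈ c.D (p.1, k, p.2) ∧ ρ x p.1 < ρ (c.mv k x) p.2).image fun p =>
        (cl (σ x) p.1, cl (σ (c.mv k x)) p.2)
    have hsub : Finset.univ.image (cl (σ x)) ⊆ insert (cl (σ x) c.o)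
        (((Finset.univ.image fun i => cl (σ x) (c.p1 i)) ∪
          Finset.univ.image fun i => cl (σ x) (c.p2 i)).erase (cl (σ x) c.o)) ∪
        (Finset.univ.biUnion fun k => (SF k).image Prod.fst) ∪
        (Finset.univ.biUnion fun k => (SB k (c.a.act x (FreeGroup.of k)⁻¹)).image Prod.snd) := by
      intro z hz
      obtain ⟨v, -, rfl⟩ := Finset.mem_image.1 hz
      obtain ⟨v', h1, h2⟩ := Nat.find_spec (hQ v x)
      have h3 := (cl_eq (he x)).2 h1
      have h4 : Nat.find (hQ v x) = ρ x v' := hρ x _ _ h3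
      rw [h3]
      rw [h4] at h2
      have hbase : (v' = c.o ∨ ∃ i, v' = c.p1 i ∨ v' = c.p2 i) → cl (σ x) v' ∈
          insert (cl (σ x) c.o) (((Finset.univ.image fun i => cl (σ x) (c.p1 i)) ∪
          Finset.univ.image fun i => cl (σ x) (c.p2 i)).erase (cl (σ x) c.o)) := by
        intro h
        by_cases h' : cl (σ x) v' = cl (σ x) c.o
        · exact Finset.mem_insert.2 (Or.inl h')
        · refine Finset.mem_insert_of_mem (Finset.mem_erase.2 ⟨h', ?_⟩)
          rcases h with rfl | ⟨i, rfl | rfl⟩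
          · exact absurd rfl h'
          · exact Finset.mem_union_left _ (Finset.mem_image.2 ⟨i, Finset.mem_univ _, rfl⟩)
          · exact Finset.mem_union_right _ (Finset.mem_image.2 ⟨i, Finset.mem_univ _, rfl⟩)
      rcases h2 with h2 | ⟨g, h2⟩
      · exact Finset.mem_union_left _ (Finset.mem_union_left _ (hbase h2))
      rcases hn : ρ x v' with _ | n
      · rw [hn] at h2
        exact Finset.mem_union_left _ (Finset.mem_union_left _ (hbase (Or.inl h2.2)))
      rw [hn] at h2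
      obtain ⟨h, u, hs, hg⟩ := h2
      have h5 : ρ (c.a.act x h) u < ρ x v' :=
        hn ▸ Nat.lt_succ_of_le (hρle _ _ _ ⟨u, (he _).refl _, Or.inr ⟨_, hg⟩⟩)
      rcases hs with ⟨k, rfl, hs⟩ | ⟨k, hk, hs⟩
      · refine Finset.mem_union_left _ (Finset.mem_union_right _ (Finset.mem_biUnion.2
          ⟨k, Finset.mem_univ _, Finset.mem_image.2 ⟨_, Finset.mem_image.2 ⟨(v', u), ?_, rfl⟩,
            rfl⟩⟩))
        exact Finset.mem_filter.2 ⟨Finset.mem_univ _, hs, h5⟩
      · obtain rfl : h = (FreeGroup.of k)⁻¹ := by rw [hk, inv_inv]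
        have h6 : c.mv k (c.a.act x (FreeGroup.of k)⁻¹) = x := by simp [mv]
        refine Finset.mem_union_right _ (Finset.mem_biUnion.2
          ⟨k, Finset.mem_univ _, Finset.mem_image.2 ⟨_, Finset.mem_image.2 ⟨(u, v'), ?_, rfl⟩,
            by rw [h6]⟩⟩)
        exact Finset.mem_filter.2 ⟨Finset.mem_univ _, hs, by rw [h6]; exact h5⟩
    refine (Finset.card_le_card hsub).trans ((Finset.card_union_le _ _).trans (add_le_add
      ((Finset.card_union_le _ _).trans (add_le_add ?_ ?_)) ?_))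
    · rw [add_comm]; exact Finset.card_insert_le _ _
    · refine Finset.card_biUnion_le.trans (Finset.sum_le_sum fun k _ =>
        Finset.card_image_le.trans (le_of_eq ?_))
      simp only [SF, Fw, nE]; congr
    · refine Finset.card_biUnion_le.trans (Finset.sum_le_sum fun k _ =>
        Finset.card_image_le.trans (le_of_eq ?_))
      simp only [SB, Bw, nE]; congr
  have hc' : ∀ x, 2 * Fintype.card T + (∑ k, if c.XX σ k x then 1 else 0) + 2 * nC (σ x) +
      (∑ k, if c.YY σ k x then 1 else 0) ≤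
      ∑ k, Out k x + ∑ k, Out k (c.a.act x (FreeGroup.of k)⁻¹) := by
    intro x
    have h1 := curv c.f c.g c.hfg (cl (σ x) c.o) (fun i => cl (σ x) (c.p1 i))
      (fun i => cl (σ x) (c.p2 i))
    have h2 : ∑ k, (1 + (if c.XX σ k x then 1 else 0) + (({cl (σ x) (c.p1 (c.f.symm k)),
        cl (σ x) (c.p2 (c.g.symm k))} : Finset (Set V)).erase (cl (σ x) c.o)).card) ≤
        ∑ k, Out k x := by
      refine Finset.sum_le_sum fun k _ => ?_
      simp only [Out]
      rw [nE_three]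
      refine le_trans (le_of_eq ?_) (out_three (cl (σ x) c.o) _ _ (cl (σ (c.mv k x)) (c.p1 k))
        (cl (σ (c.mv k x)) (c.p2 (c.f.symm k))) (cl (σ (c.mv k x)) c.o))
      simp only [XX, ne_eq, cl_eq (he _)]
      congr
    have h3 : ∑ k, (1 + (({cl (σ x) (c.p1 k),
        cl (σ x) (c.p2 (c.f.symm k))} : Finset (Set V)).erase (cl (σ x) c.o)).card) ≤
        ∑ k, Out k (c.a.act x (FreeGroup.of k)⁻¹) := by
      refine Finset.sum_le_sum fun k _ => ?_
      have h6 : c.mv k (c.a.act x (FreeGroup.of k)⁻¹) = x := by simp [mv]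
      simp only [Out]
      rw [nE_three, h6]
      exact in_three _ _ _ _ _ _
    have h4 : (∑ k, if c.YY σ k x then 1 else 0) = ∑ k, (if cl (σ x) (c.p1 k) =
        cl (σ x) (c.p2 (c.f.symm k)) ∧ cl (σ x) (c.p1 k) ≠ cl (σ x) c.o then 1 else 0) := by
      refine Finset.sum_congr rfl fun k _ => ?_
      simp only [YY, ne_eq, cl_eq (he _)]
      congr
    simp only [Finset.sum_add_distrib, Finset.sum_const, Finset.card_univ, smul_eq_mul,
      mul_one] at h2 h3
    rw [h4]
    simp only [nC]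
    omega
  have Ia := In_mono (μ := μ) ha
  have Ib := In_mono (μ := μ) hb
  have Ic := In_mono (μ := μ) hc'
  have mS : ∀ {h : T → X → ℕ}, (∀ k, Measurable (h k)) → Measurable fun x => ∑ k, h k x :=
    fun h => Finset.measurable_sum _ fun k _ => h k
  rw [In_add ((mS mO).fun_add (mS mF)), In_add (mS mO), In_sum mO, In_sum mF, In_sum mB] at Ia
  rw [In_add ((measurable_const.fun_add mC).fun_add (mS mF)), In_add (measurable_const.fun_add mC),
    In_add measurable_const, In_const, In_sum mF,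
    In_sum (h := fun k x => Bw k (c.a.act x (FreeGroup.of k)⁻¹))
      fun k => (mB k).comp (c.a.meas _)] at Ib
  rw [In_add ((measurable_const.fun_add (mS fun k => meas_ite (mX k))).fun_add
    (measurable_const.fun_mul mC)),
    In_add (measurable_const.fun_add (mS fun k => meas_ite (mX k))), In_add measurable_const,
    In_const, In_sum fun k => meas_ite (mX k), In_sum fun k => meas_ite (mY k), In_add (mS mO),
    In_sum mO, In_sum (h := fun k x => Out k (c.a.act x (FreeGroup.of k)⁻¹))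
      fun k => (mO k).comp (c.a.meas _)] at Ic
  simp_rw [fun k => In_act c.a (FreeGroup.of k)⁻¹ (mB k)] at Ib
  simp_rw [fun k => In_act c.a (FreeGroup.of k)⁻¹ (mO k), fun k => In_ite (μ := μ) (mX k),
    fun k => In_ite (μ := μ) (mY k), two_mul (nC _)] at Ic
  rw [In_add mC, ← two_mul (In μ _)] at Ic
  refine arith (In_nV_ne_top σ) hcc (nc := In μ fun x => nC (σ x)) ?_ Ia (by simpa using Ib)
    (by simpa using Ic) H hc
  refine ne_top_of_le_ne_top (by rw [In_const]; simp)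
    (In_mono (h' := fun _ => Fintype.card (Set V)) fun x => Finset.card_le_univ _)

theorem main [Nonempty T] (c : SII T X V μ) {cc : ℝ≥0∞} (hcc : cc ≠ ⊤)
    (hc : cst μ c.D + 1 ≤ Fintype.card V + Fintype.card T + cc) :
    ∃ S : T → Set X, (∀ i, MeasurableSet (S i)) ∧
      (Fintype.card T : ℝ≥0∞) ≤ 4 * ∑ i, μ (S i) ∧ 4 * ∑ i, μ (S i) ≤ 3 * Fintype.card T ∧
      ∑ i, μ (S i \ c.a.pb (FreeGroup.of (c.f i)) (S (c.f i))) ≤ 2 * cc ∧
      ∑ i, μ (S i \ c.a.pb (FreeGroup.of (c.f i) * FreeGroup.of (c.g i)) (S (c.g i))) ≤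
        4 * cc := by
  have : Nonempty V := ⟨c.o⟩
  obtain ⟨r0, hr0⟩ := exists_surjective_nat ((T × (V × V) × (V × V) × Bool × Bool) × ℕ)
  have hr : ∀ ρ n, ∃ m, n ≤ m ∧ (r0 m).1 = ρ := by
    intro ρ n
    by_contra hcon
    push Not at hcon
    have : (range fun k : ℕ => (ρ, k)) ⊆ r0 '' Iio n := by
      rintro _ ⟨k, rfl⟩
      obtain ⟨m, hm⟩ := hr0 (ρ, k)
      exact ⟨m, lt_of_not_ge fun h => hcon m h (by rw [hm]), hm⟩
    exact infinite_range_of_injective (fun k k' h => (Prod.mk.inj h).2)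
      (((finite_lt_nat n).image r0).subset this)
  set r := fun m => (r0 m).1
  let S : ℕ → T → Set X := fun n i => c.mrk (c.seq r n) i
  have hS : ∀ n i, MeasurableSet (S n i) := fun n i => (seq_meas r n _ _).setOf
  have hex : ∃ n, (Fintype.card T : ℝ≥0∞) < 4 * ∑ i, μ (S n i) := by
    have h1 : cst μ (fun i => ⋃ n, S n i) = Fintype.card T := by
      have : ∀ i, ⋃ n, S n i = univ := fun i =>
        eq_univ_of_forall fun x => mem_iUnion.2 (seq_limit hr x _ _)
      simp [cst, this]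
    rw [cst_iUnion (D := S) fun m n h i x hx => seq_mono r h hx] at h1
    have h2 : (Fintype.card T : ℝ≥0∞) < 4 * ⨆ n, cst μ (S n) := by
      rw [h1]
      have : 0 < Fintype.card T := Fintype.card_pos
      exact_mod_cast (by omega : Fintype.card T < 4 * Fintype.card T)
    rw [ENNReal.mul_iSup, lt_iSup_iff] at h2
    simpa [cst] using h2
  have h0 : Nat.find hex ≠ 0 := by
    intro h
    have := Nat.find_spec hex
    rw [h] at this
    have h' : ∀ i, S 0 i = ∅ := fun i => eq_empty_of_forall_notMem fun x hx => c.ne i hx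
    simp [h'] at this
  obtain ⟨n, hn⟩ := Nat.exists_eq_succ_of_ne_zero h0
  have h1 := Nat.find_spec hex
  have h2 := not_lt.1 (Nat.find_min hex (m := n) (by omega))
  rw [hn] at h1
  have he := seq_equiv (c := c) r (n + 1)
  have hm := seq_meas (c := c) r (n + 1)
  have hcurv := curvature he hm hcc (seq_ineq r (n + 1)) hc
  set σ := c.seq r (n + 1)
  have mX : ∀ k, MeasurableSet {x | c.XX σ k x} := fun k => Measurable.setOf
    (((hm _ _).and ((hm _ _).comp (c.a.meas _)).not).or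
      ((hm _ _).and ((hm _ _).comp (c.a.meas _)).not))
  have mY : ∀ k, MeasurableSet {x | c.YY σ k x} := fun k => ((hm _ _).and (hm _ _).not).setOf
  have eX : ∑ i, μ {x | c.XX σ (c.f i) x} = ∑ k, μ {x | c.XX σ k x} :=
    c.f.sum_comp fun k => μ {x | c.XX σ k x}
  have eY : ∑ i, μ (c.a.pb (FreeGroup.of (c.f i)) {x | c.YY σ (c.f i) x}) =
      ∑ k, μ {x | c.YY σ k x} := by
    simp_rw [c.a.measure_pb _ (mY _)]
    exact c.f.sum_comp fun k => μ {x | c.YY σ k x}
  have eX' : ∑ i, μ (c.a.pb (FreeGroup.of (c.f i)) {x | c.XX σ (c.g i) x}) =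
      ∑ k, μ {x | c.XX σ k x} := by
    simp_rw [c.a.measure_pb _ (mX _)]
    exact c.g.sum_comp fun k => μ {x | c.XX σ k x}
  have key : ∀ i y, σ y (c.p1 i) c.o → ¬ c.XX σ (c.f i) y →
      ¬ c.YY σ (c.f i) (c.mv (c.f i) y) →
      σ (c.mv (c.f i) y) (c.p1 (c.f i)) c.o ∧ σ (c.mv (c.f i) y) (c.p2 i) c.o := by
    intro i y h1 h2 h3
    simp only [XX, YY, Equiv.symm_apply_apply, not_or, not_and, not_not] at h2 h3
    exact ⟨h3 (h2.1 h1), (he _).trans ((he _).symm (h2.1 h1)) (h3 (h2.1 h1))⟩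
  refine ⟨S (n + 1), hS _, h1.le, ?_, ?_, ?_⟩
  · have h3 : ∀ i, μ (S (n + 1) i) ≤ μ (S n i) + μ (c.U (r n).2.2.2.2) := by
      intro i
      refine le_trans (measure_mono ?_) (measure_union_le _ _)
      rintro y (h | ⟨h, -⟩)
      · exact Or.inl h
      · exact Or.inr (by simpa using h.2.2.2)
    calc 4 * ∑ i, μ (S (n + 1) i) ≤ 4 * ∑ i, (μ (S n i) + μ (c.U (r n).2.2.2.2)) := by
          gcongr with i; exact h3 i
      _ = 4 * ∑ i, μ (S n i) + 2 * Fintype.card T * (2 * μ (c.U (r n).2.2.2.2)) := by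
          rw [Finset.sum_add_distrib, Finset.sum_const, Finset.card_univ, nsmul_eq_mul]; ring
      _ ≤ Fintype.card T + 2 * Fintype.card T * 1 := by gcongr; exact c.half _
      _ = _ := by ring
  · refine le_trans ?_ hcurv
    rw [← eX, ← eY, ← Finset.sum_add_distrib]
    refine Finset.sum_le_sum fun i _ => le_trans (measure_mono ?_) (measure_union_le _ _)
    rintro y ⟨hy, hy'⟩
    by_contra hcon
    rw [mem_union, not_or] at hcon
    exact hy' (key i y hy hcon.1 hcon.2).1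
  · calc _ ≤ ∑ i, (μ {x | c.XX σ (c.f i) x} + μ (c.a.pb (FreeGroup.of (c.f i))
            {x | c.YY σ (c.f i) x}) + μ (c.a.pb (FreeGroup.of (c.f i)) {x | c.XX σ (c.g i) x})) := by
          refine Finset.sum_le_sum fun i _ => le_trans (measure_mono ?_)
            ((measure_union_le _ _).trans (add_le_add (measure_union_le _ _) le_rfl))
          rintro y ⟨hy, hy'⟩
          by_contra hcon
          rw [mem_union, mem_union, not_or, not_or] at hcon
          have h3 := (key i y hy hcon.1.1 hcon.1.2).2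
          refine hcon.2 (Or.inr ⟨by simpa [mv] using h3, fun h => hy' ?_⟩)
          simpa [mv, S, mrk] using h
      _ ≤ 2 * cc + 2 * cc := by
          rw [Finset.sum_add_distrib, Finset.sum_add_distrib, eX, eY, eX']
          exact add_le_add hcurv (le_self_add.trans hcurv)
      _ = _ := by ring

end SII

end Vale.Agent.P189
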