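import Vale.Agent.P189.Basic

/-! Almost invariant families over the torus do not exist in presence of spectral gap. -/

namespace Vale.Agent.P189

open MeasureTheory Set
open scoped ENNReal symmDiff

variable {G X T : Type} [Group G] [MeasurableSpace X] {μ : Measure X} [IsProbabilityMeasure μ]
  [Fintype T]

/-- distance between families of sets -/
noncomputable def dd (μ : Measure X) (F F' : T → Set X) : ℝ := ∑ i, μ.real (F i ∆ F' i)

lemma dd_tri (F F' F'' : T → Set X) : dd μ F F'' ≤ dd μ F F' + dd μ F' F'' := by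
  unfold dd
  rw [← Finset.sum_add_distrib]
  exact Finset.sum_le_sum fun i _ => measureReal_symmDiff_le _

omit [IsProbabilityMeasure μ] in
lemma dd_comm (F F' : T → Set X) : dd μ F F' = dd μ F' F := by
  simp only [dd, symmDiff_comm]

omit [IsProbabilityMeasure μ] in
lemma dd_pb (a : PMPAction G X μ) (g : T → G) {F F' : T → Set X} (hF : ∀ i, MeasurableSet (F i))
    (hF' : ∀ i, MeasurableSet (F' i)) :
    dd μ (fun i => a.pb (g i) (F i)) (fun i => a.pb (g i) (F' i)) = dd μ F F' := by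
  refine Finset.sum_congr rfl fun i _ => ?_
  rw [Measure.real, Measure.real, ← a.measure_pb (g i) ((hF i).symmDiff (hF' i))]
  rfl

omit [IsProbabilityMeasure μ] in
lemma dd_equiv (e : T ≃ T) (F F' : T → Set X) :
    dd μ (fun i => F (e i)) (fun i => F' (e i)) = dd μ F F' :=
  e.sum_comp fun i => μ.real (F i ∆ F' i)

lemma dd_le {F F' : T → Set X} (hF : ∀ i, MeasurableSet (F i)) (hF' : ∀ i, MeasurableSet (F' i))
    (h : ∑ i, μ.real (F i) = ∑ i, μ.real (F' i)) {c : ℕ} (hc : ∑ i, μ (F i \ F' i) ≤ c) :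
    dd μ F F' ≤ 2 * c := by
  have h1 : ∑ i, μ.real (F i \ F' i) ≤ c := by
    have := ENNReal.toReal_mono (by simp) hc
    rwa [ENNReal.toReal_sum fun i _ => measure_ne_top _ _, ENNReal.toReal_natCast] at this
  have h2 : ∀ i, μ.real (F i ∆ F' i) =
      2 * μ.real (F i \ F' i) + μ.real (F' i) - μ.real (F i) := by
    intro i
    have e1 := measureReal_inter_add_sdiff (μ := μ) (s := F i) (hF' i)
    have e2 := measureReal_inter_add_sdiff (μ := μ) (s := F' i) (hF i)
    rw [Set.symmDiff_def, measureReal_union disjoint_sdiff_sdiff ((hF' i).diff (hF i))]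
    rw [inter_comm] at e2
    linarith
  simp only [dd, h2, Finset.sum_sub_distrib, Finset.sum_add_distrib, ← Finset.mul_sum]
  linarith

theorem torus [AddCommGroup T] (hT : Fintype.card T = 1000000) (e1 e2 : T)
    (hgen : ∀ v : T, ∃ x y : ℕ, x ≤ 1000 ∧ y ≤ 1000 ∧ v = x • e1 + y • e2)
    (a : PMPAction G X μ) (b : T → G)
    (gap : ∀ k S, MeasurableSet S → 32 * (μ.real S * (1 - μ.real S)) ≤
      ∑ n : Fin 32, μ.real (S ∆ a.pb (b (k + (n.val + 1) • (e2 - e1)) * (b k)⁻¹) S))
    (S : T → Set X) (hS : ∀ i, MeasurableSet (S i))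
    (h1 : (Fintype.card T : ℝ≥0∞) ≤ 4 * ∑ i, μ (S i)) (h2 : 4 * ∑ i, μ (S i) ≤ 3 * Fintype.card T)
    (h3 : ∑ i, μ (S i \ a.pb (b (i + e1)) (S (i + e1))) ≤ (10 : ℕ))
    (h4 : ∑ i, μ (S i \ a.pb (b (i + e1) * b (i + (e1 + e2))) (S (i + (e1 + e2)))) ≤ (20 : ℕ)) :
    False := by
  have hpb : ∀ g i, μ.real (a.pb g (S i)) = μ.real (S i) := fun g i => by
    simp [Measure.real, a.measure_pb g (hS i)]
  have hpm : ∀ g i, MeasurableSet (a.pb g (S i)) := fun g i => a.measurableSet_pb g (hS i)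
  have hsh : ∀ v, ∑ i, μ.real (S i) = ∑ i, μ.real (S (i + v)) := fun v =>
    (Equiv.sum_comp (Equiv.addRight v) fun i => μ.real (S i)).symm
  have c1 := dd_le hS (fun i => hpm _ _) (by simp only [hpb]; exact hsh _) h3
  have c2 := dd_le hS (fun i => hpm _ _) (by simp only [hpb]; exact hsh _) h4
  have c3 : dd μ S (fun i => a.pb (b (i + e2)) (S (i + e2))) ≤ 60 := by
    rw [← dd_equiv (Equiv.addRight e1), ← dd_pb a (fun i => b (i + e1)) (fun i => hS _)
      fun i => hpm _ _]
    simp only [Equiv.coe_addRight, a.pb_pb, add_assoc]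
    refine (dd_tri _ S _).trans ?_
    rw [dd_comm]
    push_cast at c1 c2
    linarith
  have c4 : dd μ S (fun i => S (i + (e2 - e1))) ≤ 80 := by
    refine (dd_tri _ (fun i => a.pb (b (i + e2)) (S (i + e2))) _).trans ?_
    rw [← dd_equiv (Equiv.addRight (e2 - e1)), dd_comm] at c1
    simp only [Equiv.coe_addRight, add_assoc, sub_add_cancel] at c1
    push_cast at c1
    linarith
  have c5 : ∀ n : ℕ, dd μ S (fun i => S (i + n • (e2 - e1))) ≤ 80 * n := by
    intro n
    induction n with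
    | zero => simp [dd]
    | succ n ih =>
      refine (dd_tri _ (fun i => S (i + n • (e2 - e1))) _).trans ?_
      rw [← dd_equiv (Equiv.addRight (n • (e2 - e1)))] at c4
      simp only [Equiv.coe_addRight, add_assoc, ← succ_nsmul] at c4
      push_cast
      linarith
  have c6 : ∀ n : ℕ, dd μ S (fun i => a.pb (b (i + e1 + n • (e2 - e1)) * (b (i + e1))⁻¹) (S i)) ≤
      160 * n + 40 := by
    intro n
    have k1 := c5 n
    have k2 := c1
    rw [← dd_equiv (Equiv.addRight (n • (e2 - e1)))] at k2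
    have k3 := c5 n
    rw [← dd_equiv (Equiv.addRight e1), ← dd_pb a (fun i => b (i + e1 + n • (e2 - e1)))
      (fun i => hS _) fun i => hS _, dd_comm] at k3
    have k4 := c1
    rw [← dd_pb a (fun i => b (i + e1 + n • (e2 - e1)) * (b (i + e1))⁻¹)
      (fun i => hS _) fun i => hpm _ _, dd_comm] at k4
    simp only [Equiv.coe_addRight, a.pb_pb, inv_mul_cancel_right,
      add_right_comm _ (n • (e2 - e1)) e1] at k2 k3 k4
    have t1 := dd_tri (μ := μ) S (fun i => S (i + n • (e2 - e1)))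
      (fun i => a.pb (b (i + e1 + n • (e2 - e1)) * (b (i + e1))⁻¹) (S i))
    have t2 := dd_tri (μ := μ) (fun i => S (i + n • (e2 - e1)))
      (fun i => a.pb (b (i + e1 + n • (e2 - e1))) (S (i + e1 + n • (e2 - e1))))
      (fun i => a.pb (b (i + e1 + n • (e2 - e1)) * (b (i + e1))⁻¹) (S i))
    have t3 := dd_tri (μ := μ)
      (fun i => a.pb (b (i + e1 + n • (e2 - e1))) (S (i + e1 + n • (e2 - e1))))
      (fun i => a.pb (b (i + e1 + n • (e2 - e1))) (S (i + e1)))
      (fun i => a.pb (b (i + e1 + n • (e2 - e1)) * (b (i + e1))⁻¹) (S i))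
    push_cast at k2 k4
    linarith
  set f : T → ℝ := fun i => μ.real (S i) with hf
  have c7 : ∑ i, f i * (1 - f i) ≤ 5160 := by
    have := Finset.sum_le_sum fun i (_ : i ∈ Finset.univ) => gap (i + e1) (S i) (hS i)
    rw [← Finset.mul_sum, Finset.sum_comm] at this
    have h' : ∑ n : Fin 32, ∑ i, μ.real (S i ∆ a.pb (b (i + e1 + (n.val + 1) • (e2 - e1)) *
        (b (i + e1))⁻¹) (S i)) ≤ ∑ _n : Fin 32, (5160 : ℝ) := by
      refine Finset.sum_le_sum fun n _ => (c6 (n.val + 1)).trans ?_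
      have : ((n.val + 1 : ℕ) : ℝ) ≤ 32 := by exact_mod_cast n.2
      linarith
    simp only [Finset.sum_const, Finset.card_univ, Fintype.card_fin, nsmul_eq_mul] at h'
    push_cast at h'
    linarith
  let Δ : T → ℝ := fun v => ∑ i, |f i - f (i + v)|
  have d0 : ∀ v (g : T → G), Δ v ≤ dd μ S (fun i => a.pb (g i) (S (i + v))) := by
    intro v g
    refine Finset.sum_le_sum fun i _ => ?_
    simp only [hf]
    rw [← hpb (g i) (i + v)]
    exact abs_measureReal_sub_le_measureReal_symmDiff (hS _).nullMeasurableSet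
      (hpm _ _).nullMeasurableSet
  have d1 : ∀ v w, Δ (v + w) ≤ Δ v + Δ w := by
    intro v w
    have : Δ w = ∑ i, |f (i + v) - f (i + v + w)| :=
      (Equiv.sum_comp (Equiv.addRight v) fun i => |f i - f (i + w)|).symm
    rw [this, ← Finset.sum_add_distrib]
    exact Finset.sum_le_sum fun i _ => by rw [add_assoc]; exact abs_sub_le _ _ _
  have d2 : ∀ (n : ℕ) v, Δ (n • v) ≤ n * Δ v := by
    intro n v
    induction n with
    | zero => simp [Δ]
    | succ n ih => rw [succ_nsmul]; push_cast; linarith [d1 (n • v) v]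
  have d3 : ∀ v, Δ v ≤ 80000 := by
    intro v
    obtain ⟨x, y, hx, hy, rfl⟩ := hgen v
    have e1' := (d0 e1 _).trans c1
    have e2' := (d0 e2 _).trans c3
    have hx' : (x : ℝ) ≤ 1000 := by exact_mod_cast hx
    have hy' : (y : ℝ) ≤ 1000 := by exact_mod_cast hy
    have p1 : 0 ≤ Δ e1 := Finset.sum_nonneg fun i _ => abs_nonneg _
    have p2 : 0 ≤ Δ e2 := Finset.sum_nonneg fun i _ => abs_nonneg _
    push_cast at e1'
    nlinarith [d1 (x • e1) (y • e2), d2 x e1, d2 y e2]
  have f0 : ∀ i, 0 ≤ f i := fun i => measureReal_nonneg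
  have f1 : ∀ i, f i ≤ 1 := fun i => measureReal_le_one
  have d4 : ∑ i, ∑ j, (f i - f j) ^ 2 ≤ 1000000 * 80000 := by
    have : ∀ i, ∑ j, (f i - f j) ^ 2 = ∑ v, (f i - f (i + v)) ^ 2 := fun i =>
      (Equiv.sum_comp (Equiv.addLeft i) fun j => (f i - f j) ^ 2).symm
    simp_rw [this]
    rw [Finset.sum_comm]
    calc _ ≤ ∑ _v : T, (80000 : ℝ) := by
          refine Finset.sum_le_sum fun v _ => le_trans (Finset.sum_le_sum fun i _ => ?_) (d3 v)
          rw [← sq_abs]
          have : |f i - f (i + v)| ≤ 1 := abs_le.2 ⟨by linarith [f0 i, f1 (i + v)],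
            by linarith [f1 i, f0 (i + v)]⟩
          nlinarith [abs_nonneg (f i - f (i + v))]
      _ = _ := by simp [hT]
  have d5 : ∑ i, ∑ j, (f i - f j) ^ 2 = 2 * 1000000 * ∑ i, f i ^ 2 - 2 * (∑ i, f i) ^ 2 := by
    simp only [sub_sq, Finset.sum_add_distrib, Finset.sum_sub_distrib, Finset.sum_const,
      Finset.card_univ, hT, nsmul_eq_mul, ← Finset.mul_sum, ← Finset.sum_mul]
    push_cast
    ring
  have d6 : ∑ i, f i * (1 - f i) = ∑ i, f i - ∑ i, f i ^ 2 := by
    rw [← Finset.sum_sub_distrib]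
    exact Finset.sum_congr rfl fun i _ => by ring
  have hs : (∑ i, μ (S i)).toReal = ∑ i, f i :=
    ENNReal.toReal_sum fun i _ => measure_ne_top _ _
  have hne : ∑ i, μ (S i) ≠ ⊤ := ENNReal.sum_ne_top.2 fun i _ => measure_ne_top _ _
  have s1 := ENNReal.toReal_mono (ENNReal.mul_ne_top (by simp) hne) h1
  have s2 := ENNReal.toReal_mono (ENNReal.mul_ne_top (by simp) (by simp)) h2
  simp only [ENNReal.toReal_mul, hs, hT, ENNReal.toReal_natCast, ENNReal.toReal_ofNat] at s1 s2
  push_cast at s1 s2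
  nlinarith [mul_nonneg (sub_nonneg.2 s1) (sub_nonneg.2 s2)]

end Vale.Agent.P189
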