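import Vale.Agent.P189.Group
import Vale.Agent.P189.StepII
import Vale.Agent.P189.Torus

/-! Assembly. -/

namespace Vale.Agent.P189

open MeasureTheory Set ProbabilityTheory SemidirectProduct
open scoped ENNReal

lemma exists_phi (X : Type) [MeasurableSpace X] [StandardBorelSpace X] (L : Type) [Countable L] :
    ∃ φ : X → L → ℝ, (∀ l, Measurable fun x => φ x l) ∧
      ∀ x l y l', φ x l = φ y l' → x = y ∧ l = l' := by
  let _ : MeasurableSpace L := ⊤
  have : DiscreteMeasurableSpace L := ⟨fun _ => trivial⟩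
  refine ⟨fun x l => embeddingReal (X × L) (x, l), fun l =>
    (measurable_embeddingReal _).comp (measurable_id.prodMk measurable_const), ?_⟩
  intro x l y l' h
  exact Prod.mk.inj ((measurableEmbedding_embeddingReal _).injective h)

variable {T : Type} [Fintype T] [Nonempty T] {X : Type} [MeasurableSpace X]
  [StandardBorelSpace X] {μ : Measure X} [IsProbabilityMeasure μ]

omit [Nonempty T] in
/-- relative generation of the base group at bounded cost -/
theorem relative {J : Subgroup (FreeGroup T)} (a : PMPAction (Gam J) X μ) (ha : a.EssFree)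
    (hc : a.cost < 2) : ∃ (V : Type) (_ : Fintype V) (o : V) (D : V × FreeGroup T × V → Set X),
      (∀ k, MeasurableSet (D k)) ∧ cst μ D + 1 ≤ Fintype.card V + 4 ∧
      ∀ᵐ x ∂μ, ∀ v α w, Gen (a.comp inr)
        (fun x v g w => (v = o ∧ w = o ∧ g ∈ J) ∨ x ∈ D (v, g, w)) x v α w := by
  classical
  simp only [PMPAction.cost, iInf_lt_iff] at hc
  obtain ⟨Φ, hΦ, hc⟩ := hc
  obtain ⟨D0, hD0, c0, g0⟩ := graphing_to_family ha Φ hΦ
  obtain ⟨F, D1, hD1, c1, g1⟩ := truncate (a := a) (fun _ _ _ => False) D0 hD0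
    (Finset.univ.image fun s => ((), gen J s, ())) (by
      filter_upwards [g0] with x hx τ _
      exact (hx _).mono fun _ _ _ _ => Or.inr)
  choose hd tl hw using exists_word (gen J) (closure_gen J) none
  obtain ⟨V, _, nd, D, hD, c2, full, -⟩ := subdivide (a := a) (gen J) (K := F) (fun _ => ())
    (fun _ => ()) (fun k => hd k.1.2.1) (fun k => tl k.1.2.1) (fun k => D1 k.1) (fun k => hD1 _)
    (full_of_gens () _ (closure_gen J) (fun x _ => ⟨1, Gen.refl _ _⟩) (by
      rintro x _ ⟨s, rfl⟩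
      refine (g1 x _ (Finset.mem_image_of_mem _ (Finset.mem_univ s))).mono ?_
      rintro x v g w (h | ⟨h1, h2⟩)
      exacts [h.elim, ⟨⟨_, h1⟩, rfl, rfl, hw _, h2⟩]))
  obtain ⟨φ, hφ1, hφ2⟩ := exists_phi X (V × V)
  let Pc : V × FreeGroup T × V → Set X := fun k =>
    {x | ∃ z : V × T × V, (z.1, FreeGroup.of z.2.1, z.2.2) = k ∧ x ∈ D (z.1, some z.2.1, z.2.2)}
  have hPc : ∀ k, MeasurableSet (Pc k) := fun k =>
    Measurable.setOf (Measurable.exists fun z => measurable_const.and (hD _).mem)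
  let c : SI (FreeGroup T) (Gam J) X V μ :=
    { a := a, J := J, ι := inr, t := tt J, o := nd [] (), Pc := Pc,
      Lk := fun l => D (l.1, none, l.2), φ := φ, mPc := hPc, mLk := fun _ => hD _, mφ := hφ1,
      iφ := hφ2, comm := tt_comm J, free := ha, rt := rightHom, lf := fun g => g.left,
      rt_ι := fun _ => rfl, rt_t := rfl, lf_ι := fun g α => by simp, lf_t := left_mul_tt J,
      full := fun x v g w => (full x v g w).mono (by
        rintro x v _ w ⟨_ | i, rfl, h⟩
        exacts [Or.inr ⟨rfl, h⟩, Or.inl ⟨_, rfl, (v, i, w), rfl, h⟩]) }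
  obtain ⟨Q, hQ, c3, g3⟩ := c.main
  refine ⟨V, inferInstance, nd [] (), fun k => Pc k ∪ Q k, fun k => (hPc k).union (hQ k), ?_, g3⟩
  have c4 : cst μ Pc + cst μ c.Lk ≤ cst μ D := by
    refine le_trans (add_le_add (cst_push (μ := μ) _ (B := fun z : V × T × V =>
      D (z.1, some z.2.1, z.2.2)) fun k x hx => hx) le_rfl) ?_
    let e : (V × T × V) ⊕ (V × V) → V × Option T × V :=
      Sum.elim (fun z => (z.1, some z.2.1, z.2.2)) fun l => (l.1, none, l.2)
    refine le_trans (le_of_eq (cst_sum (μ := μ) fun k => D (e k)).symm)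
      (ENNReal.tsum_comp_le_tsum_of_injective ?_ fun k => μ (D k))
    rintro (⟨_, _, _⟩ | ⟨_, _⟩) (⟨_, _, _⟩ | ⟨_, _⟩) h <;> simp_all [e]
  have c5 : cst μ (fun k : F => D1 k.1) ≤ 2 + 1 := by
    rw [cst, tsum_fintype, Finset.sum_coe_sort F fun k => μ (D1 k)]
    exact c1.trans (by gcongr; exact c0.trans hc.le)
  calc _ ≤ cst μ Pc + cst μ Q + 1 := by gcongr; exact cst_union_le fun k => subset_rfl
    _ ≤ cst μ Pc + (cst μ c.Lk + 1) + 1 := by gcongr
    _ = (cst μ Pc + cst μ c.Lk) + 1 + 1 := by ring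
    _ ≤ (cst μ D + Fintype.card Unit) + 1 := by gcongr; simp
    _ ≤ (2 + 1 + Fintype.card V) + 1 := add_le_add (c2.trans (by gcongr)) le_rfl
    _ = _ := by ring

theorem sweep (f g : T ≃ T) (hfg : ∀ i, f (f i) ≠ g i) (U : Bool → Set X)
    (mU : ∀ u, MeasurableSet (U u)) (cover : ∀ x, ∃ u, x ∈ U u) (half : ∀ u, 2 * μ (U u) ≤ 1)
    (a : PMPAction (Gam (Subgroup.closure (range fun i =>
      FreeGroup.of i * FreeGroup.of (f i) * FreeGroup.of (g i)))) X μ) (ha : a.EssFree)
    (hc : a.cost < 2) :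
    ∃ S : T → Set X, (∀ i, MeasurableSet (S i)) ∧
      (Fintype.card T : ℝ≥0∞) ≤ 4 * ∑ i, μ (S i) ∧ 4 * ∑ i, μ (S i) ≤ 3 * Fintype.card T ∧
      ∑ i, μ (S i \ (a.comp inr).pb (FreeGroup.of (f i)) (S (f i))) ≤ (10 : ℕ) ∧
      ∑ i, μ (S i \ (a.comp inr).pb (FreeGroup.of (f i) * FreeGroup.of (g i)) (S (g i))) ≤
        (20 : ℕ) := by
  classical
  obtain ⟨V, _, o, D0, hD0, c0, g0⟩ := relative a ha hc
  obtain ⟨F, D1, hD1, c1, g1⟩ := truncate (a := a.comp inr) _ D0 hD0
    ((Finset.univ.image fun v => (v, 1, o)) ∪ Finset.univ.image fun i => (o, FreeGroup.of i, o))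
    (by filter_upwards [g0] with x hx τ _ using hx _ _ _)
  obtain ⟨i0⟩ := ‹Nonempty T›
  choose hd tl hw using exists_word (FreeGroup.of (α := T)) (FreeGroup.closure_range_of T) i0
  let R : X → V → FreeGroup T → V → Prop := fun x v γ w => ∃ k : F ⊕ T,
    Sum.elim (fun k => k.1.1) (fun _ => o) k = v ∧ Sum.elim (fun k => k.1.2.2) (fun _ => o) k = w ∧
    ev FreeGroup.of (Sum.elim (fun k => hd k.1.2.1) (fun i => (i, true)) k ::
      Sum.elim (fun k => tl k.1.2.1) (fun i => [(f i, true), (g i, true)]) k) = γ ∧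
    x ∈ Sum.elim (fun k => D1 k.1) (fun _ => univ) k
  have hJ : ∀ γ ∈ Subgroup.closure (range fun i =>
      FreeGroup.of i * FreeGroup.of (f i) * FreeGroup.of (g i)), ∀ x,
      Gen (a.comp inr) R x o γ o := by
    intro γ hγ
    induction hγ using Subgroup.closure_induction with
    | mem s hs =>
      obtain ⟨i, rfl⟩ := hs
      exact fun x => Gen.of ⟨Sum.inr i, rfl, rfl, by simp [mul_assoc], mem_univ _⟩
    | one => exact fun x => Gen.refl _ _
    | mul g h _ _ ihg ihh => exact fun x => (ihg x).trans (ihh _)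
    | inv g _ ih => intro x; exact (ih ((a.comp inr).act x g⁻¹)).symm.cast (by simp) rfl
  have g2 : ∀ x, ∀ τ ∈ (Finset.univ.image fun v => (v, 1, o)) ∪
      Finset.univ.image fun i => (o, FreeGroup.of i, o),
      Gen (a.comp inr) R x τ.1 τ.2.1 τ.2.2 := by
    intro x τ hτ
    refine (g1 x τ hτ).sim id ?_
    rintro x v γ w (⟨rfl, rfl, h⟩ | ⟨h1, h2⟩)
    exacts [hJ _ h _, Gen.of ⟨Sum.inl ⟨_, h1⟩, rfl, rfl, hw _, h2⟩]
  obtain ⟨V', _, nd, D, hD, c2, full, k1, k2, k3⟩ := subdivide (a := a.comp inr) FreeGroup.of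
    (K := F ⊕ T) _ _ _ _ _ (by rintro (k | i); exacts [hD1 _, MeasurableSet.univ])
    (full_of_gens (R := R) o _ (FreeGroup.closure_range_of T)
      (fun x v => ⟨1, g2 x (v, 1, o) (by simp)⟩) (by
        rintro x _ ⟨i, rfl⟩
        exact g2 x (o, FreeGroup.of i, o) (by simp)))
  let c : SII T X V' μ :=
    { a := a.comp inr, D := D, mD := hD, full := full, o := nd [] o,
      p1 := fun i => nd [(f i, true), (g i, true)] o, p2 := fun i => nd [(g i, true)] o,
      f := f, g := g, hfg := hfg,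
      e1 := fun i x => k1 (Sum.inr i) i rfl x (mem_univ x),
      e2 := fun i x => k2 _ _ _ _ (by simp), e3 := fun i x => k2 _ _ _ _ (by simp),
      ne := fun i => k3 _ _ _ _ (by simp), U := U, mU := mU, cover := cover, half := half }
  obtain ⟨S, h1, h2, h3, h4, h5⟩ := c.main (cc := 5) (by simp) (by
    rw [← ENNReal.add_le_add_iff_right (ENNReal.natCast_ne_top (Fintype.card V))]
    rw [cst_sum] at c2
    have c5 : cst μ (fun k : F => D1 k.1) ≤ cst μ D0 + 1 := by
      rwa [cst, tsum_fintype, Finset.sum_coe_sort F fun k => μ (D1 k)]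
    calc _ = cst μ D + Fintype.card V + 1 := by rw [add_right_comm]
      _ ≤ (cst μ D0 + 1 + Fintype.card T + Fintype.card V') + 1 := by
          exact add_le_add (c2.trans (add_le_add (add_le_add c5 (cst_le_card _)) le_rfl)) le_rfl
      _ ≤ (Fintype.card V + 4 + Fintype.card T + Fintype.card V') + 1 := by gcongr
      _ = _ := by ring)
  exact ⟨S, h1, h2, h3, h4.trans (by norm_num), h5.trans (by norm_num)⟩

/-- the discrete torus -/
abbrev Tor := ZMod 1000 × ZMod 1000

/-- the subgroup -/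
def JJ : Subgroup (FreeGroup Tor) := Subgroup.closure (range fun i =>
  FreeGroup.of i * FreeGroup.of (Equiv.addRight ((1, 0) : Tor) i) *
    FreeGroup.of (Equiv.addRight ((1, 0) + (0, 1) : Tor) i))

lemma card_Tor : Fintype.card Tor = 1000000 := by simp [ZMod.card]

theorem bern_cost : 2 ≤ (shift (Gam JJ)).cost := by
  by_contra hc
  obtain ⟨S, h1, h2, h3, h4, h5⟩ := sweep (Equiv.addRight ((1, 0) : Tor))
    (Equiv.addRight ((1, 0) + (0, 1) : Tor)) (fun i h => by
      simp only [Equiv.coe_addRight, add_assoc, add_right_inj] at h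
      exact absurd (congrArg Prod.fst h) (by decide)) (fun u => {ω : Gam JJ → Bool | ω 1 = u})
    (fun u => Measurable.setOf (Measurable.eq_const (f := fun ω : Gam JJ → Bool => ω 1)
      (measurable_pi_apply 1) u)) (fun ω => ⟨ω 1, rfl⟩) bern_half
    (shift (Gam JJ)) shift_free (not_le.1 hc)
  refine torus card_Tor (1, 0) (0, 1) (fun v => ⟨v.1.val, v.2.val, (ZMod.val_lt _).le,
    (ZMod.val_lt _).le, by simp⟩) _ FreeGroup.of (fun k S hS => ?_) S h1 h2 h3 h4 h5
  refine gam_gap JJ k (fun n => k + (n.val + 1) • ((0, 1) - (1, 0) : Tor)) ?_ ?_ S hS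
  · intro n m h
    have := congrArg Prod.snd h
    simp only [Prod.snd_add, add_right_inj, Prod.smul_snd, Prod.snd_sub, sub_zero,
      nsmul_one] at this
    rw [ZMod.natCast_eq_natCast_iff'] at this
    ext; omega
  · intro n h
    have := congrArg Prod.snd h
    simp only [Prod.snd_add, add_eq_left, Prod.smul_snd, Prod.snd_sub, sub_zero,
      nsmul_one] at this
    rw [ZMod.natCast_eq_zero_iff] at this
    have := Nat.le_of_dvd (Nat.succ_pos _) this
    omega

theorem main : ∃ (Γ : Type) (_ : Group Γ) (_ : Countable Γ)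
    (X : Type) (_ : MeasurableSpace X) (_ : StandardBorelSpace X) (μ : Measure X)
    (_ : IsProbabilityMeasure μ) (a : PMPAction Γ X μ)
    (Y : Type) (_ : MeasurableSpace Y) (_ : StandardBorelSpace Y) (ν : Measure Y)
    (_ : IsProbabilityMeasure ν) (b : PMPAction Γ Y ν),
    a.EssFree ∧ b.EssFree ∧ a.cost < 2 ∧ 2 ≤ b.cost := by
  obtain ⟨χ, hχ⟩ := exists_char JJ (Multiplicative.ofAdd (1 : ZMod 10000000))
  refine ⟨Gam JJ, inferInstance, inferInstance, _, inferInstance, inferInstance, _, inferInstance,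
    cyc (shift (Gam JJ)) χ, _, inferInstance, inferInstance, _, inferInstance, shift (Gam JJ),
    cyc_free χ shift_free, shift_free, ?_, bern_cost⟩
  refine (cyc_cost JJ _ χ hχ _ _ fun i => Subgroup.subset_closure ⟨i, rfl⟩).trans_lt ?_
  rw [card_Tor, show (2 : ℝ≥0∞) = 1 + 1 from one_add_one_eq_two.symm, ENNReal.add_lt_add_iff_left (by simp),
    ENNReal.div_lt_iff (by simp) (by simp)]
  norm_num

end Vale.Agent.P189
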